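import Vale.Agent.Lib.P243.Spl

/-!
The band lemma: at a central chord, either the volume excess is definite, or
for every horizontal `w` a whole band of vertical components gives short chords
at one of the two ends of the chord.
-/

open MeasureTheory Set Metric
open scoped ENNReal Topology

noncomputable section

namespace Vale.Agent.Lib.P243

variable {K : Set X}

/-- Point `p` lies above the tent by the definite amount `‖w‖ ℓ / 36`. -/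
def Exceeds (K : Set X) (ℓ : ℝ) (w p : P) : Prop :=
  ℓ * (1 - gauge (Dom K) p) + ‖w‖ * ℓ / 36 ≤ chord K p

lemma combo_mem (hc : Convex ℝ K) {g : P} {z z₀ a : ℝ} (h : (g, z) ∈ K) (h₀ : ((0:P), z₀) ∈ K)
    (ha0 : 0 ≤ a) (ha1 : a ≤ 1) : (a • g, (1 - a) * z₀ + a * z) ∈ K := by
  have := hc h₀ h (sub_nonneg.2 ha1) ha0 (by ring)
  rw [pt_combo] at this
  simpa using this

/-- The band lemma. -/
lemma band (hc : Convex ℝ K) (hK : IsCompact K) (hball : closedBall (0:P) (1/48) ⊆ Dom K)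
    (hR : ∀ y ∈ Dom K, ‖y‖ ≤ 9/2)
    (hZ : ∀ y z y' z', (y, z) ∈ K → (y', z') ∈ K → |z - z'| ≤ 9/2)
    {ℓ : ℝ} (hℓ : 0 < ℓ) (hb : botf K 0 = 0) (ht : topf K 0 = ℓ) {w : P} (hw0 : w ≠ 0)
    (hw : ‖w‖ ≤ 1/96) :
    ∃ b : ℝ, |b| ≤ 216 * ‖w‖ ∧
      ((∀ τ ξ : ℝ, 0 ≤ τ → τ ≤ ‖w‖ * ℓ / 36 → |ξ - b| ≤ ‖w‖ * ℓ / 18 →
          ((w, ℓ - τ + ξ) ∈ K ∨ (-w, ℓ - τ - ξ) ∈ K) → Exceeds K ℓ w w ∨ Exceeds K ℓ w (-w)) ∨
       (∀ τ ξ : ℝ, 0 ≤ τ → τ ≤ ‖w‖ * ℓ / 36 → |ξ - b| ≤ ‖w‖ * ℓ / 18 →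
          ((w, τ + ξ) ∈ K ∨ (-w, τ - ξ) ∈ K) → Exceeds K ℓ w w ∨ Exceeds K ℓ w (-w))) := by
  have hDc := dom_convex hc
  have hDcl := (dom_compact hK).isClosed
  have hDb := (dom_compact hK).isBounded
  have hD0 : Dom K ∈ 𝓝 (0:P) := Filter.mem_of_superset (closedBall_mem_nhds _ (by norm_num)) hball
  have hw00 : (0:P) ∈ Dom K := mem_of_mem_nhds hD0
  have hp0 : ((0:P), (0:ℝ)) ∈ K := by
    have := bot_mem hK hw00
    rwa [hb] at this
  have hpℓ : ((0:P), ℓ) ∈ K := by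
    have := top_mem hK hw00
    rwa [ht] at this
  have hwpos : 0 < ‖w‖ := norm_pos_iff.2 hw0
  have hnw0 : -w ≠ 0 := neg_ne_zero.2 hw0
  -- gauge bounds
  have hub : ∀ v : P, gauge (Dom K) v ≤ 48 * ‖v‖ := by
    intro v
    have := mul_gauge_le_norm (s := Dom K) (r := 1/48) (x := v)
      (ball_subset_closedBall.trans hball)
    linarith
  have hlb : ∀ v : P, 2/9 * ‖v‖ ≤ gauge (Dom K) v := by
    intro v
    have := le_gauge_of_subset_closedBall (s := Dom K) (r := 9/2) (x := v)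
      (absorbent_nhds_zero hD0) (by norm_num)
      (fun y hy => by rw [mem_closedBall_zero_iff]; exact hR y hy)
    have e : ‖v‖ / (9/2) = 2/9 * ‖v‖ := by ring
    rwa [e] at this
  set a₁ := gauge (Dom K) w with ha₁
  set a₂ := gauge (Dom K) (-w) with ha₂
  have h1a₁ : 2/9 * ‖w‖ ≤ a₁ := hlb w
  have h1a₂ : 2/9 * ‖w‖ ≤ a₂ := by
    have := hlb (-w)
    rwa [norm_neg] at this
  have h2a₁ : a₁ ≤ 48 * ‖w‖ := hub w
  have h2a₂ : a₂ ≤ 48 * ‖w‖ := by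
    have := hub (-w)
    rwa [norm_neg] at this
  have ha₁pos : 0 < a₁ := by nlinarith
  have ha₂pos : 0 < a₂ := by nlinarith
  have ha₁le : a₁ ≤ 1 := by nlinarith
  have ha₂le : a₂ ≤ 1 := by nlinarith
  -- lifts of the rim points
  obtain ⟨z₁, hz₁⟩ := mem_dom.1 (rim_mem hDc hDcl hD0 hDb hw0).1
  obtain ⟨z₂, hz₂⟩ := mem_dom.1 (rim_mem hDc hDcl hD0 hDb hnw0).1
  rw [← ha₁] at hz₁
  rw [← ha₂] at hz₂
  have hs₁ : a₁ • (a₁⁻¹ • w) = w := by rw [smul_smul, mul_inv_cancel₀ ha₁pos.ne', one_smul]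
  have hs₂ : a₂ • (a₂⁻¹ • (-w)) = -w := by rw [smul_smul, mul_inv_cancel₀ ha₂pos.ne', one_smul]
  -- four auxiliary points of K over `w` and `-w`
  have P1 : (w, a₁ * z₁) ∈ K := by
    have := combo_mem hc hz₁ hp0 ha₁pos.le ha₁le
    rw [hs₁] at this
    simpa using this
  have P2 : (w, (1 - a₁) * ℓ + a₁ * z₁) ∈ K := by
    have := combo_mem hc hz₁ hpℓ ha₁pos.le ha₁le
    rwa [hs₁] at this
  have P3 : (-w, a₂ * z₂) ∈ K := by
    have := combo_mem hc hz₂ hp0 ha₂pos.le ha₂le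
    rw [hs₂] at this
    simpa using this
  have P4 : (-w, (1 - a₂) * ℓ + a₂ * z₂) ∈ K := by
    have := combo_mem hc hz₂ hpℓ ha₂pos.le ha₂le
    rwa [hs₂] at this
  -- the mean height over the origin
  have hsum : 0 < a₁ + a₂ := by linarith
  set zm := (a₁ * z₁ + a₂ * z₂) / (a₁ + a₂) with hzm
  have hmid : ((0:P), zm) ∈ K := by
    have h0 : 0 ≤ a₁ / (a₁ + a₂) := by positivity
    have h1 : 0 ≤ a₂ / (a₁ + a₂) := by positivity
    have h2 : a₁ / (a₁ + a₂) + a₂ / (a₁ + a₂) = 1 := by field_simp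
    have := hc hz₁ hz₂ h0 h1 h2
    rw [pt_combo] at this
    have e1 : (a₁ / (a₁ + a₂)) • (a₁⁻¹ • w) + (a₂ / (a₁ + a₂)) • (a₂⁻¹ • (-w)) = 0 := by
      rw [smul_smul, smul_smul, smul_neg]
      have e3 : a₁ / (a₁ + a₂) * a₁⁻¹ = a₂ / (a₁ + a₂) * a₂⁻¹ := by field_simp
      rw [e3, add_neg_cancel]
    have e2 : a₁ / (a₁ + a₂) * z₁ + a₂ / (a₁ + a₂) * z₂ = zm := by
      rw [hzm]
      field_simp
    rwa [e1, e2] at this
  have hzm0 : 0 ≤ zm := by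
    have := bot_le hK hmid
    rwa [hb] at this
  have hzmℓ : zm ≤ ℓ := by
    have := le_top hK hmid
    rwa [ht] at this
  set b := (z₁ - z₂) * a₁ * a₂ / (a₁ + a₂) with hbdef
  have hid₁ : a₁ * z₁ = a₁ * zm + b := by
    rw [hzm, hbdef]
    field_simp
    ring
  have hid₂ : a₂ * z₂ = a₂ * zm - b := by
    rw [hzm, hbdef]
    field_simp
    ring
  have hbbd : |b| ≤ 216 * ‖w‖ := by
    have hd : |z₁ - z₂| ≤ 9/2 := hZ _ _ _ _ hz₁ hz₂
    have e : |b| = |z₁ - z₂| * (a₁ * (a₂ / (a₁ + a₂))) := by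
      rw [hbdef]
      have : (z₁ - z₂) * a₁ * a₂ / (a₁ + a₂) = (z₁ - z₂) * (a₁ * (a₂ / (a₁ + a₂))) := by
        field_simp
      rw [this, abs_mul, abs_of_nonneg (by positivity : 0 ≤ a₁ * (a₂ / (a₁ + a₂)))]
    rw [e]
    have h3 : a₂ / (a₁ + a₂) ≤ 1 := by
      rw [div_le_one hsum]
      linarith
    have h4 : a₁ * (a₂ / (a₁ + a₂)) ≤ 48 * ‖w‖ := by
      calc a₁ * (a₂ / (a₁ + a₂)) ≤ a₁ * 1 := mul_le_mul_of_nonneg_left h3 ha₁pos.le
        _ ≤ 48 * ‖w‖ := by linarith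
    calc |z₁ - z₂| * (a₁ * (a₂ / (a₁ + a₂))) ≤ 9/2 * (48 * ‖w‖) :=
          mul_le_mul hd h4 (by positivity) (by norm_num)
      _ = 216 * ‖w‖ := by ring
  refine ⟨b, hbbd, ?_⟩
  by_cases hcase : zm ≤ ℓ / 2
  · left
    intro τ ξ hτ0 hτ hξ hmem
    rw [abs_le] at hξ
    have hkey₁ : ‖w‖ * ℓ / 9 ≤ a₁ * (ℓ - zm) := by
      have : 2/9 * ‖w‖ * (ℓ / 2) ≤ a₁ * (ℓ - zm) :=
        mul_le_mul h1a₁ (by linarith) (by positivity) ha₁pos.le
      nlinarith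
    have hkey₂ : ‖w‖ * ℓ / 9 ≤ a₂ * (ℓ - zm) := by
      have : 2/9 * ‖w‖ * (ℓ / 2) ≤ a₂ * (ℓ - zm) :=
        mul_le_mul h1a₂ (by linarith) (by positivity) ha₂pos.le
      nlinarith
    rcases hmem with hm | hm
    · left
      have := chord_ge hK hm P1
      unfold Exceeds
      rw [← ha₁]
      linarith [hξ.1, hξ.2]
    · right
      have := chord_ge hK hm P3
      unfold Exceeds
      rw [← ha₂]
      linarith [hξ.1, hξ.2]
  · right
    have hcase' : ℓ / 2 ≤ zm := (not_le.1 hcase).le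
    intro τ ξ hτ0 hτ hξ hmem
    rw [abs_le] at hξ
    have hkey₁ : ‖w‖ * ℓ / 9 ≤ a₁ * zm := by
      have : 2/9 * ‖w‖ * (ℓ / 2) ≤ a₁ * zm :=
        mul_le_mul h1a₁ hcase' (by positivity) ha₁pos.le
      nlinarith
    have hkey₂ : ‖w‖ * ℓ / 9 ≤ a₂ * zm := by
      have : 2/9 * ‖w‖ * (ℓ / 2) ≤ a₂ * zm :=
        mul_le_mul h1a₂ hcase' (by positivity) ha₂pos.le
      nlinarith
    rcases hmem with hm | hm
    · left
      have := chord_ge hK P2 hm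
      unfold Exceeds
      rw [← ha₁]
      linarith [hξ.1, hξ.2]
    · right
      have := chord_ge hK P4 hm
      unfold Exceeds
      rw [← ha₂]
      linarith [hξ.1, hξ.2]

/-- Excess of one point gives a volume excess. -/
lemma exceeds_volume (hc : Convex ℝ K) (hK : IsCompact K)
    (hball : closedBall (0:P) (1/48) ⊆ Dom K) (hR : ∀ y ∈ Dom K, ‖y‖ ≤ 9/2) {ℓ : ℝ} (hℓ : 0 < ℓ)
    (hℓ' : ℓ = chord K 0) {w p : P} (hw0 : w ≠ 0) (hw : ‖w‖ ≤ 1/96) (hpw : p = w ∨ p = -w)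
    (hex : Exceeds K ℓ w p) :
    ENNReal.ofReal (ℓ / 3) * volume (Dom K) +
      ENNReal.ofReal (‖w‖ * ℓ / 192 * (rad ^ 2 * Real.pi)) ≤ volume K := by
  have hD0 : Dom K ∈ 𝓝 (0:P) := Filter.mem_of_superset (closedBall_mem_nhds _ (by norm_num)) hball
  have hpn : ‖p‖ = ‖w‖ := by
    rcases hpw with rfl | rfl
    · rfl
    · exact norm_neg _
  have hp0 : p ≠ 0 := by
    rcases hpw with rfl | rfl
    · exact hw0
    · exact neg_ne_zero.2 hw0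
  obtain ⟨y₀, hy₀⟩ := spl hc hK hball hR hℓ hp0 (hpn ▸ hw) (m := ‖w‖ * ℓ / 36) (by rw [hpn]) hex
  have hδ : 0 ≤ 3 * (‖w‖ * ℓ / 36) / 16 := by positivity
  have := volume_excess hc hK hD0 hℓ' hℓ (G := closedBall y₀ rad) measurableSet_closedBall hδ hy₀
  refine le_trans ?_ this
  gcongr
  rw [EuclideanSpace.volume_closedBall_fin_two]
  have hradpos := rad_pos
  rw [← ENNReal.ofReal_pow hradpos.le, ← ENNReal.ofReal_mul (by positivity),
    ← ENNReal.ofReal_mul (by positivity)]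
  apply ENNReal.ofReal_le_ofReal
  apply le_of_eq
  ring

end Vale.Agent.Lib.P243
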