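import Mathlib

/-!
Basic vertical-section calculus for convex bodies in `ℝ² × ℝ`.
-/

open MeasureTheory Set Metric
open scoped ENNReal

noncomputable section

namespace Vale.Agent.Lib.P243

/-- The horizontal plane. -/
abbrev P := EuclideanSpace ℝ (Fin 2)
/-- Three-space written as horizontal plane times vertical line. -/
abbrev X := P × ℝ

/-- Vertical section of `K` over `y`. -/
def Sl (K : Set X) (y : P) : Set ℝ := {z | (y, z) ∈ K}

/-- Vertical projection of `K`. -/
def Dom (K : Set X) : Set P := Prod.fst '' K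

/-- Upper end of the vertical section. -/
def topf (K : Set X) (y : P) : ℝ := sSup (Sl K y)

/-- Lower end of the vertical section. -/
def botf (K : Set X) (y : P) : ℝ := sInf (Sl K y)

/-- Length of the vertical chord. -/
def chord (K : Set X) (y : P) : ℝ := topf K y - botf K y

variable {K : Set X}

lemma mem_dom {y : P} : y ∈ Dom K ↔ ∃ z, (y, z) ∈ K := by
  constructor
  · rintro ⟨⟨y', z⟩, h, rfl⟩
    exact ⟨z, h⟩
  · rintro ⟨z, h⟩
    exact ⟨(y, z), h, rfl⟩

lemma mem_dom_of_mem {y : P} {z : ℝ} (h : (y, z) ∈ K) : y ∈ Dom K := mem_dom.2 ⟨z, h⟩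

lemma sl_compact (hK : IsCompact K) (y : P) : IsCompact (Sl K y) := by
  have hcl : IsClosed (Sl K y) := by
    have : Continuous (fun z : ℝ => ((y, z) : X)) := by fun_prop
    exact hK.isClosed.preimage this
  refine (hK.image continuous_snd).of_isClosed_subset hcl ?_
  intro z hz
  exact ⟨(y, z), hz, rfl⟩

lemma sl_convex (hc : Convex ℝ K) (y : P) : Convex ℝ (Sl K y) := by
  intro z₁ h₁ z₂ h₂ a b ha hb hab
  have := hc h₁ h₂ ha hb hab
  have e : a • ((y, z₁) : X) + b • ((y, z₂) : X) = (y, a • z₁ + b • z₂) := by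
    ext1
    · simp only [Prod.fst_add, Prod.smul_fst]
      rw [← add_smul, hab, one_smul]
    · simp
  rw [e] at this
  exact this

lemma sl_nonempty {y : P} (hy : y ∈ Dom K) : (Sl K y).Nonempty := by
  obtain ⟨z, hz⟩ := mem_dom.1 hy
  exact ⟨z, hz⟩

lemma top_mem (hK : IsCompact K) {y : P} (hy : y ∈ Dom K) : (y, topf K y) ∈ K :=
  (sl_compact hK y).sSup_mem (sl_nonempty hy)

lemma bot_mem (hK : IsCompact K) {y : P} (hy : y ∈ Dom K) : (y, botf K y) ∈ K :=
  (sl_compact hK y).sInf_mem (sl_nonempty hy)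

lemma le_top (hK : IsCompact K) {y : P} {z : ℝ} (h : (y, z) ∈ K) : z ≤ topf K y :=
  le_csSup (sl_compact hK y).bddAbove h

lemma bot_le (hK : IsCompact K) {y : P} {z : ℝ} (h : (y, z) ∈ K) : botf K y ≤ z :=
  csInf_le (sl_compact hK y).bddBelow h

lemma sl_eq_Icc (hc : Convex ℝ K) (hK : IsCompact K) {y : P} (hy : y ∈ Dom K) :
    Sl K y = Icc (botf K y) (topf K y) := by
  apply Subset.antisymm
  · intro z hz
    exact ⟨bot_le hK hz, le_top hK hz⟩
  · exact (sl_convex hc y).ordConnected.out (bot_mem hK hy) (top_mem hK hy)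

lemma bot_le_top (hK : IsCompact K) {y : P} (hy : y ∈ Dom K) : botf K y ≤ topf K y :=
  bot_le hK (top_mem hK hy)

lemma chord_nonneg (hK : IsCompact K) {y : P} (hy : y ∈ Dom K) : 0 ≤ chord K y :=
  sub_nonneg.2 (bot_le_top hK hy)

lemma chord_of_not_mem {y : P} (hy : y ∉ Dom K) : chord K y = 0 := by
  have : Sl K y = ∅ := by
    ext z
    simp only [mem_empty_iff_false, iff_false]
    intro hz
    exact hy (mem_dom_of_mem hz)
  simp [chord, topf, botf, this]

lemma chord_nonneg' (hK : IsCompact K) (y : P) : 0 ≤ chord K y := by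
  by_cases hy : y ∈ Dom K
  · exact chord_nonneg hK hy
  · rw [chord_of_not_mem hy]

lemma volume_sl (hc : Convex ℝ K) (hK : IsCompact K) (y : P) :
    volume (Sl K y) = ENNReal.ofReal (chord K y) := by
  by_cases hy : y ∈ Dom K
  · rw [sl_eq_Icc hc hK hy, Real.volume_Icc]
    rfl
  · have : Sl K y = ∅ := by
      ext z
      simp only [mem_empty_iff_false, iff_false]
      intro hz
      exact hy (mem_dom_of_mem hz)
    rw [this, chord_of_not_mem hy]
    simp

lemma measurable_chord (hc : Convex ℝ K) (hK : IsCompact K) : Measurable (chord K) := by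
  have h1 : Measurable (fun y : P => volume (Prod.mk y ⁻¹' K)) :=
    measurable_measure_prodMk_left hK.measurableSet
  have h2 : chord K = fun y => (volume (Prod.mk y ⁻¹' K)).toReal := by
    funext y
    have : Prod.mk y ⁻¹' K = Sl K y := rfl
    rw [this, volume_sl hc hK y, ENNReal.toReal_ofReal (chord_nonneg' hK y)]
  rw [h2]
  exact h1.ennreal_toReal

lemma volume_eq_lintegral (hc : Convex ℝ K) (hK : IsCompact K) :
    volume K = ∫⁻ y, ENNReal.ofReal (chord K y) := by
  rw [Measure.volume_eq_prod, Measure.prod_apply hK.measurableSet]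
  refine lintegral_congr fun y => ?_
  exact volume_sl hc hK y

lemma dom_compact (hK : IsCompact K) : IsCompact (Dom K) := hK.image continuous_fst

lemma dom_convex (hc : Convex ℝ K) : Convex ℝ (Dom K) := by
  have := hc.linear_image (LinearMap.fst ℝ P ℝ)
  exact this

lemma pt_combo (a b : ℝ) (y₁ y₂ : P) (z₁ z₂ : ℝ) :
    a • ((y₁, z₁) : X) + b • ((y₂, z₂) : X) = (a • y₁ + b • y₂, a * z₁ + b * z₂) := by
  simp

lemma chord_ge {y : P} {z₁ z₂ : ℝ} (hK : IsCompact K) (h₁ : (y, z₁) ∈ K) (h₂ : (y, z₂) ∈ K) :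
    z₁ - z₂ ≤ chord K y :=
  sub_le_sub (le_top hK h₁) (bot_le hK h₂)

lemma chord_concave (hc : Convex ℝ K) (hK : IsCompact K) {y₁ y₂ : P}
    (h₁ : y₁ ∈ Dom K) (h₂ : y₂ ∈ Dom K) {a b : ℝ} (ha : 0 ≤ a) (hb : 0 ≤ b) (hab : a + b = 1) :
    a * chord K y₁ + b * chord K y₂ ≤ chord K (a • y₁ + b • y₂) := by
  have ht := hc (top_mem hK h₁) (top_mem hK h₂) ha hb hab
  have hb' := hc (bot_mem hK h₁) (bot_mem hK h₂) ha hb hab
  rw [pt_combo] at ht hb'
  have := chord_ge hK ht hb'
  unfold chord at *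
  nlinarith

lemma lintegral_split {W : X → ℝ≥0∞} (hW : Measurable W) :
    ∫⁻ x, W x = ∫⁻ y, ∫⁻ z, W (y, z) := by
  rw [Measure.volume_eq_prod, lintegral_prod _ hW.aemeasurable]

/-- Translate of a set. -/
def shiftSet (K : Set X) (t : X) : Set X := {x | x + t ∈ K}

lemma mem_shiftSet {t x : X} : x ∈ shiftSet K t ↔ x + t ∈ K := Iff.rfl

lemma shift_convex (hc : Convex ℝ K) (t : X) : Convex ℝ (shiftSet K t) := by
  intro x hx x' hx' a b ha hb hab
  have := hc hx hx' ha hb hab
  show a • x + b • x' + t ∈ K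
  have e : a • x + b • x' + t = a • (x + t) + b • (x' + t) := by
    rw [smul_add, smul_add]
    have : t = a • t + b • t := by rw [← add_smul, hab, one_smul]
    calc a • x + b • x' + t = a • x + b • x' + (a • t + b • t) := by rw [← this]
      _ = a • x + a • t + (b • x' + b • t) := by abel
  rw [e]
  exact this

lemma shift_compact (hK : IsCompact K) (t : X) : IsCompact (shiftSet K t) := by
  have := hK.image (continuous_id.add (continuous_const (y := -t)))
  convert this using 1
  ext x
  constructor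
  · intro h
    exact ⟨x + t, h, by simp⟩
  · rintro ⟨w, hw, rfl⟩
    show _ ∈ K
    simpa using hw

lemma shift_volume (hK : IsCompact K) (t : X) : volume (shiftSet K t) = volume K := by
  have : shiftSet K t = (fun x => t + x) ⁻¹' K := by
    ext x
    simp [shiftSet, add_comm]
  rw [this, Measure.volume_eq_prod, measure_preimage_add]

lemma shift_dom (t : X) : Dom (shiftSet K t) = {y | y + t.1 ∈ Dom K} := by
  ext y
  constructor
  · intro h
    obtain ⟨z, hz⟩ := mem_dom.1 h
    exact mem_dom.2 ⟨z + t.2, hz⟩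
  · intro h
    obtain ⟨z, hz⟩ := mem_dom.1 h
    refine mem_dom.2 ⟨z - t.2, ?_⟩
    show ((y + t.1, z - t.2 + t.2) : X) ∈ K
    simpa using hz

lemma shift_sl (t : X) (y : P) : Sl (shiftSet K t) y = {z | z + t.2 ∈ Sl K (y + t.1)} := by
  ext z
  rfl

lemma shift_chord (hc : Convex ℝ K) (hK : IsCompact K) (t : X) (y : P) :
    chord (shiftSet K t) y = chord K (y + t.1) := by
  have h1 := volume_sl (shift_convex hc t) (shift_compact hK t) y
  have h2 := volume_sl hc hK (y + t.1)
  have e : Sl (shiftSet K t) y = (fun z => z + t.2) ⁻¹' Sl K (y + t.1) := by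
    rw [shift_sl]
    rfl
  rw [e, measure_preimage_add_right, h2] at h1
  have := (ENNReal.ofReal_eq_ofReal_iff (chord_nonneg' hK _)
    (chord_nonneg' (shift_compact hK t) y)).1 h1
  exact this.symm

end Vale.Agent.Lib.P243
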