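import Vale.Agent.Lib.P243.Normal

/-!
The final inequality for cylinder coverings.
-/

open MeasureTheory Set Metric Module
open scoped ENNReal Topology

noncomputable section

namespace Vale.Agent.Lib.P243

/-- An orthonormal frame gives a volume preserving linear bijection from `ℝ² × ℝ`. -/
lemma exists_frame (u : E3) (e : P →ₗᵢ[ℝ] E3) (hu : ‖u‖ = 1)
    (he : ∀ y, inner ℝ (e y) u = 0) :
    ∃ F : X ≃ₗ[ℝ] E3, (∀ (y : P) (t : ℝ), F (y, t) = e y + t • u) ∧
      MeasurePreserving F volume volume := by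
  set L₀ : X →ₗ[ℝ] E3 := e.toLinearMap.coprod (LinearMap.toSpanSingleton ℝ E3 u) with hL₀
  have hL₀a : ∀ (y : P) (t : ℝ), L₀ (y, t) = e y + t • u := by
    intro y t
    simp [hL₀]
  set L₁ : Y →ₗ[ℝ] E3 := L₀ ∘ₗ (WithLp.linearEquiv 2 ℝ X).toLinearMap with hL₁
  have hnorm : ∀ x : Y, ‖L₁ x‖ = ‖x‖ := by
    intro x
    have h1 : L₁ x = e (WithLp.ofLp x).1 + (WithLp.ofLp x).2 • u := hL₀a _ _
    have h2 : ‖x‖ ^ 2 = nsq (WithLp.ofLp x) := by
      have := norm_sq_toLp (WithLp.ofLp x)
      simpa using this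
    have h3 : ‖L₁ x‖ ^ 2 = nsq (WithLp.ofLp x) := by
      rw [h1, norm_add_sq_real, e.norm_map, norm_smul, inner_smul_right, he, hu]
      simp [nsq]
    have h4 : ‖L₁ x‖ ^ 2 = ‖x‖ ^ 2 := by rw [h3, h2]
    exact (pow_left_inj₀ (norm_nonneg _) (norm_nonneg _) (by norm_num)).1 h4
  set Li : Y →ₗᵢ[ℝ] E3 := ⟨L₁, hnorm⟩ with hLi
  have hfin : finrank ℝ Y = finrank ℝ E3 := by
    rw [finrank_Y, finrank_euclideanSpace_fin]
  set Q : Y ≃ₗᵢ[ℝ] E3 := Li.toLinearIsometryEquiv hfin with hQ
  refine ⟨(WithLp.linearEquiv 2 ℝ X).symm.trans Q.toLinearEquiv, ?_, ?_⟩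
  · intro y t
    exact hL₀a y t
  · exact Q.measurePreserving.comp (WithLp.volume_preserving_toLp P ℝ)

/-- The main theorem in explicit form. -/
theorem relative_bound (K : Set E3) (hc : Convex ℝ K) (hK : IsCompact K)
    (hint : (interior K).Nonempty) {ι : Type*} [Fintype ι] (u : ι → E3)
    (e : ι → (P →ₗᵢ[ℝ] E3)) (hu : ∀ i, ‖u i‖ = 1) (he : ∀ i y, inner ℝ (e i y) (u i) = 0)
    (B : ι → Set P) (hBfin : ∀ i, volume (B i) ≠ ⊤)
    (hcover : ∀ x ∈ K, ∃ i, ∃ y ∈ B i, ∃ t : ℝ, x = e i y + t • u i) :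
    1 / 3 + 1 / 10 ^ 49 ≤
      ∑ i, (volume (B i)).toReal / (volume {y : P | ∃ x ∈ K, ∃ t : ℝ, x = e i y + t • u i}).toReal := by
  obtain ⟨Ξ, p, hN⟩ := exists_normal hc hK hint
  set KN : Set X := {x | p + Ξ x ∈ K} with hKN
  have hKNc := hN.2.1
  -- the weight on three-space
  set WE : E3 → ℝ≥0∞ := fun x => ENNReal.ofReal (wt KN rr ee (Ξ.symm (x - p))) with hWE
  have hcontS : Continuous Ξ.symm := Ξ.symm.toLinearMap.continuous_of_finiteDimensional
  have hWEm : Measurable WE := by
    apply ENNReal.measurable_ofReal.comp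
    apply (measurable_wt hKNc rr ee).comp
    exact (hcontS.comp (continuous_id.sub continuous_const)).measurable
  have hWE0 : ∀ x, x ∉ K → WE x = 0 := by
    intro x hx
    have : Ξ.symm (x - p) ∉ KN := by
      intro h1
      have h2 : p + Ξ (Ξ.symm (x - p)) ∈ K := h1
      rw [LinearEquiv.apply_symm_apply] at h2
      apply hx
      simpa using h2
    show ENNReal.ofReal (wt KN rr ee (Ξ.symm (x - p))) = 0
    rw [wt_of_not_mem this]
    simp
  have hWE1 : ∀ x, WE x ≤ 1 := by
    intro x
    rw [← ENNReal.ofReal_one]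
    exact ENNReal.ofReal_le_ofReal (wt_le_one rr_pos ee_pos.le ee_le _)
  set Wt := ∫⁻ x, WE x with hWt
  have hWttop : Wt ≠ ⊤ := by
    have h1 : Wt ≤ volume K := by
      calc Wt ≤ ∫⁻ x, K.indicator (fun _ => (1 : ℝ≥0∞)) x := by
            refine lintegral_mono fun x => ?_
            by_cases hx : x ∈ K
            · rw [indicator_of_mem hx]
              exact hWE1 x
            · rw [indicator_of_notMem hx, hWE0 x hx]
        _ = volume K := by
            rw [lintegral_indicator hK.measurableSet, setLIntegral_const, one_mul]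
    exact ne_top_of_le_ne_top hK.measure_lt_top.ne h1
  -- frames
  choose F hFa hFm using fun i => exists_frame (u i) (e i) (hu i) (he i)
  set Dm : ι → Set P := fun i => {y : P | ∃ x ∈ K, ∃ t : ℝ, x = e i y + t • u i} with hDm
  -- the transfer for each direction
  have htr : ∀ i, (∀ y : P, (∫⁻ t, WE (F i (y, t))) * volume (Dm i) ≤ ENNReal.ofReal CC * Wt) ∧
      Wt ≠ 0 ∧ volume (Dm i) ≠ 0 ∧ volume (Dm i) ≠ ⊤ := by
    intro i
    set A : X ≃ₗ[ℝ] X := (F i).trans Ξ.symm with hA
    set q : X := Ξ.symm p with hq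
    have hval : ∀ x : X, A x - q = Ξ.symm (F i x - p) := by
      intro x
      rw [map_sub]
      rfl
    have hWEF : ∀ x : X, WE (F i x) = ENNReal.ofReal (wt KN rr ee (A x - q)) := by
      intro x
      rw [hval]
    obtain ⟨h1, h2, h3, h4⟩ := transfer hN A q
    have hset : Dom {x | A x - q ∈ KN} = Dm i := by
      ext y
      constructor
      · intro hy
        obtain ⟨t, ht⟩ := mem_dom.1 hy
        have h5 : p + Ξ (A (y, t) - q) ∈ K := ht
        rw [hval, LinearEquiv.apply_symm_apply] at h5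
        have h6 : F i (y, t) ∈ K := by simpa using h5
        exact ⟨F i (y, t), h6, t, hFa i y t⟩
      · rintro ⟨x, hx, t, rfl⟩
        refine mem_dom.2 ⟨t, ?_⟩
        show p + Ξ (A (y, t) - q) ∈ K
        rw [hval, LinearEquiv.apply_symm_apply, hFa]
        simpa using hx
    rw [hset] at h1 h3 h4
    have htot : ∫⁻ x, ENNReal.ofReal (wt KN rr ee (A x - q)) = Wt := by
      simp_rw [← hWEF]
      exact (hFm i).lintegral_comp hWEm
    rw [htot] at h1 h2
    refine ⟨?_, h2, h3, h4⟩
    intro y
    simp_rw [hWEF]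
    exact h1 y
  -- the pointwise bound over each base
  set Bm : ι → Set P := fun i => toMeasurable volume (B i) with hBm
  have hBmm : ∀ i, MeasurableSet (Bm i) := fun i => measurableSet_toMeasurable _ _
  have hBmv : ∀ i, volume (Bm i) = volume (B i) := fun i => measure_toMeasurable _
  set C : ι → Set E3 := fun i => (fun x => ((F i).symm x).1) ⁻¹' Bm i with hC
  have hCm : ∀ i, MeasurableSet (C i) := by
    intro i
    apply hBmm i |>.preimage
    have : Continuous (F i).symm := (F i).symm.toLinearMap.continuous_of_finiteDimensional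
    exact (continuous_fst.comp this).measurable
  have hpiece : ∀ i, ∫⁻ x, (C i).indicator WE x ≤
      volume (B i) * (ENNReal.ofReal CC * Wt / volume (Dm i)) := by
    intro i
    obtain ⟨h1, -, h3, h4⟩ := htr i
    have hm : Measurable ((C i).indicator WE) := hWEm.indicator (hCm i)
    have hFc : Continuous (F i) := (F i).toLinearMap.continuous_of_finiteDimensional
    have hm2 : Measurable fun a : X => (C i).indicator WE (F i a) := hm.comp hFc.measurable
    rw [← (hFm i).lintegral_comp hm, lintegral_split hm2]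
    have hpt : ∀ y : P, ∫⁻ t, (C i).indicator WE (F i (y, t)) =
        (Bm i).indicator (fun y => ∫⁻ t, WE (F i (y, t))) y := by
      intro y
      by_cases hy : y ∈ Bm i
      · rw [indicator_of_mem hy]
        refine lintegral_congr fun t => ?_
        have : F i (y, t) ∈ C i := by
          show ((F i).symm (F i (y, t))).1 ∈ Bm i
          simpa using hy
        rw [indicator_of_mem this]
      · rw [indicator_of_notMem hy]
        have h0 : ∀ t, (C i).indicator WE (F i (y, t)) = 0 := by
          intro t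
          have : F i (y, t) ∉ C i := by
            show ((F i).symm (F i (y, t))).1 ∉ Bm i
            simpa using hy
          rw [indicator_of_notMem this]
        simp [h0]
    simp_rw [hpt]
    rw [lintegral_indicator (hBmm i)]
    have hbd : ∀ y, ∫⁻ t, WE (F i (y, t)) ≤ ENNReal.ofReal CC * Wt / volume (Dm i) := by
      intro y
      rw [ENNReal.le_div_iff_mul_le (Or.inl h3) (Or.inl h4)]
      exact h1 y
    calc ∫⁻ y in Bm i, ∫⁻ t, WE (F i (y, t))
        ≤ ∫⁻ _ in Bm i, ENNReal.ofReal CC * Wt / volume (Dm i) :=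
          lintegral_mono fun y => hbd y
      _ = ENNReal.ofReal CC * Wt / volume (Dm i) * volume (Bm i) := setLIntegral_const _ _
      _ = volume (B i) * (ENNReal.ofReal CC * Wt / volume (Dm i)) := by
          rw [hBmv, mul_comm]
  -- summing over the covering
  have hsum : Wt ≤ ∑ i, volume (B i) * (ENNReal.ofReal CC * Wt / volume (Dm i)) := by
    calc Wt ≤ ∫⁻ x, ∑ i, (C i).indicator WE x := by
          refine lintegral_mono fun x => ?_
          by_cases hx : x ∈ K
          · obtain ⟨i, y, hy, t, rfl⟩ := hcover x hx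
            have hmem : e i y + t • u i ∈ C i := by
              show ((F i).symm (e i y + t • u i)).1 ∈ Bm i
              rw [← hFa i y t]
              simpa using subset_toMeasurable volume (B i) hy
            calc WE (e i y + t • u i) = (C i).indicator WE (e i y + t • u i) := by
                  rw [indicator_of_mem hmem]
              _ ≤ _ := Finset.single_le_sum (f := fun j => (C j).indicator WE (e i y + t • u i))
                  (fun _ _ => zero_le) (Finset.mem_univ i)
          · rw [hWE0 x hx]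
            exact zero_le
      _ = ∑ i, ∫⁻ x, (C i).indicator WE x := by
          rw [lintegral_finset_sum _ fun i _ => hWEm.indicator (hCm i)]
      _ ≤ _ := Finset.sum_le_sum fun i _ => hpiece i
  -- existence of an index
  have hKne : K.Nonempty := hint.mono interior_subset
  obtain ⟨x₀, hx₀⟩ := hKne
  obtain ⟨i₀, -, -, -, -⟩ := hcover x₀ hx₀
  have hWt0 : Wt ≠ 0 := (htr i₀).2.1
  -- passage to real numbers
  set rs : ι → ℝ := fun i => (volume (B i)).toReal / (volume (Dm i)).toReal with hrs
  have hrs0 : ∀ i, 0 ≤ rs i := fun i => div_nonneg ENNReal.toReal_nonneg ENNReal.toReal_nonneg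
  have hterm : ∀ i, volume (B i) * (ENNReal.ofReal CC * Wt / volume (Dm i)) =
      ENNReal.ofReal (CC * rs i) * Wt := by
    intro i
    obtain ⟨-, -, h3, h4⟩ := htr i
    have hB : volume (B i) = ENNReal.ofReal (volume (B i)).toReal :=
      (ENNReal.ofReal_toReal (hBfin i)).symm
    have hD : volume (Dm i) = ENNReal.ofReal (volume (Dm i)).toReal :=
      (ENNReal.ofReal_toReal h4).symm
    have hDpos : 0 < (volume (Dm i)).toReal := ENNReal.toReal_pos h3 h4
    rw [ENNReal.ofReal_mul CC_pos.le, hrs]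
    simp only
    rw [ENNReal.ofReal_div_of_pos hDpos, ENNReal.ofReal_toReal (hBfin i), ENNReal.ofReal_toReal h4,
      div_eq_mul_inv, div_eq_mul_inv]
    ring
  have hsum2 : Wt ≤ ENNReal.ofReal (CC * ∑ i, rs i) * Wt := by
    calc Wt ≤ ∑ i, ENNReal.ofReal (CC * rs i) * Wt := by
          refine hsum.trans (le_of_eq ?_)
          exact Finset.sum_congr rfl fun i _ => hterm i
      _ = (∑ i, ENNReal.ofReal (CC * rs i)) * Wt := by rw [Finset.sum_mul]
      _ = ENNReal.ofReal (CC * ∑ i, rs i) * Wt := by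
          rw [Finset.mul_sum, ENNReal.ofReal_sum_of_nonneg]
          exact fun i _ => mul_nonneg CC_pos.le (hrs0 i)
  have h1le : 1 ≤ ENNReal.ofReal (CC * ∑ i, rs i) := by
    have h2 : 1 * Wt ≤ ENNReal.ofReal (CC * ∑ i, rs i) * Wt := by
      rw [one_mul]
      exact hsum2
    exact (ENNReal.mul_le_mul_iff_left hWt0 hWttop).1 h2
  have h3 : 1 ≤ CC * ∑ i, rs i := by
    rw [← ENNReal.ofReal_one] at h1le
    have hnn : 0 ≤ CC * ∑ i, rs i := mul_nonneg CC_pos.le (Finset.sum_nonneg fun i _ => hrs0 i)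
    exact (ENNReal.ofReal_le_ofReal_iff hnn).1 h1le
  have h4 : CC = 1 / (1 / 3 + 1 / 10 ^ 49) := rfl
  have hpos : (0:ℝ) < 1 / 3 + 1 / 10 ^ 49 := by positivity
  rw [h4, div_mul_eq_mul_div, one_mul, le_div_iff₀ hpos, one_mul] at h3
  exact h3

end Vale.Agent.Lib.P243
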