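import Vale.Agent.Lib.P243.Basic

/-!
Layer-cake bound and the tent inequality `V ≥ ℓ A / 3`.
-/

open MeasureTheory Set Metric
open scoped ENNReal Topology

noncomputable section

namespace Vale.Agent.Lib.P243

lemma integral_tent {ℓ : ℝ} (hℓ : 0 < ℓ) :
    ∫⁻ t in Ioo (0:ℝ) ℓ, ENNReal.ofReal ((1 - t / ℓ) ^ 2) = ENNReal.ofReal (ℓ / 3) := by
  have hint : IntervalIntegrable (fun t : ℝ => (1 - t / ℓ) ^ 2) volume 0 ℓ :=
    (by fun_prop : Continuous (fun t : ℝ => (1 - t / ℓ) ^ 2)).intervalIntegrable _ _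
  have h1 : ∫ t in (0:ℝ)..ℓ, (1 - t / ℓ) ^ 2 = ℓ / 3 := by
    have hd : ∀ t ∈ uIcc (0:ℝ) ℓ,
        HasDerivAt (fun t : ℝ => -(ℓ / 3) * (1 - t / ℓ) ^ 3) ((1 - t / ℓ) ^ 2) t := by
      intro t _
      have h0 : HasDerivAt (fun t : ℝ => 1 - t / ℓ) (-(1 / ℓ)) t := by
        have := ((hasDerivAt_id t).div_const ℓ).const_sub 1
        simpa using this
      have h2 : HasDerivAt (fun t : ℝ => -(ℓ / 3) * (1 - t / ℓ) ^ 3)
          (-(ℓ / 3) * (3 * (1 - t / ℓ) ^ 2 * (-(1 / ℓ)))) t :=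
        (h0.fun_pow 3).const_mul (-(ℓ / 3))
      refine h2.congr_deriv ?_
      have hne := hℓ.ne'
      field_simp
    rw [intervalIntegral.integral_eq_sub_of_hasDerivAt hd hint]
    have : ℓ / ℓ = 1 := div_self hℓ.ne'
    simp [this]
  have h2 : ∫ t in Ioo (0:ℝ) ℓ, (1 - t / ℓ) ^ 2 = ℓ / 3 := by
    rw [← integral_Ioc_eq_integral_Ioo, ← intervalIntegral.integral_of_le hℓ.le, h1]
  rw [← h2, ofReal_integral_eq_lintegral_ofReal]
  · have : IntegrableOn (fun t : ℝ => (1 - t / ℓ) ^ 2) (Ioc 0 ℓ) volume :=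
      (intervalIntegrable_iff_integrableOn_Ioc_of_le hℓ.le).1 hint
    exact this.mono_set Ioo_subset_Ioc_self
  · exact Filter.Eventually.of_forall fun t => by positivity

/-- The layer-cake lower bound: a function which dominates the tent profile over `D`. -/
lemma layer_bound {D : Set P} {y₀ : P} {ℓ : ℝ} (hℓ : 0 < ℓ) {h : P → ℝ} (hm : Measurable h)
    (hnn : ∀ y, 0 ≤ h y)
    (hle : ∀ c ∈ Icc (0:ℝ) 1, ∀ d ∈ D, c * ℓ ≤ h (y₀ + (1 - c) • (d - y₀))) :
    ENNReal.ofReal (ℓ / 3) * volume D ≤ ∫⁻ y, ENNReal.ofReal (h y) := by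
  rw [lintegral_eq_lintegral_meas_le volume (Filter.Eventually.of_forall hnn) hm.aemeasurable]
  have key : ∀ t ∈ Ioo (0:ℝ) ℓ,
      ENNReal.ofReal ((1 - t / ℓ) ^ 2) * volume D ≤ volume {a | t ≤ h a} := by
    intro t ht
    have hc0 : 0 ≤ t / ℓ := div_nonneg ht.1.le hℓ.le
    have hc1 : t / ℓ ≤ 1 := (div_le_one hℓ).2 ht.2.le
    have hsub : AffineMap.homothety y₀ (1 - t / ℓ) '' D ⊆ {a | t ≤ h a} := by
      rintro _ ⟨d, hd, rfl⟩
      have := hle (t / ℓ) ⟨hc0, hc1⟩ d hd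
      rw [div_mul_cancel₀ _ hℓ.ne'] at this
      have e : AffineMap.homothety y₀ (1 - t / ℓ) d = y₀ + (1 - t / ℓ) • (d - y₀) := by
        simp [AffineMap.homothety_apply, add_comm]
      rw [mem_ofPred_eq, e]
      exact this
    refine le_trans ?_ (measure_mono hsub)
    rw [Measure.addHaar_image_homothety, finrank_euclideanSpace_fin]
    have : |(1 - t / ℓ) ^ 2| = (1 - t / ℓ) ^ 2 := abs_of_nonneg (by positivity)
    rw [this]
  calc ENNReal.ofReal (ℓ / 3) * volume D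
      = ∫⁻ t in Ioo (0:ℝ) ℓ, ENNReal.ofReal ((1 - t / ℓ) ^ 2) * volume D := by
        rw [lintegral_mul_const _ (by fun_prop), integral_tent hℓ]
    _ ≤ ∫⁻ t in Ioo (0:ℝ) ℓ, volume {a | t ≤ h a} :=
        setLIntegral_mono' measurableSet_Ioo key
    _ ≤ ∫⁻ t in Ioi (0:ℝ), volume {a | t ≤ h a} := lintegral_mono_set (fun t ht => ht.1)

variable {K : Set X}

/-- The classical inequality `V ≥ ℓ A / 3`. -/
lemma tent_ineq (hc : Convex ℝ K) (hK : IsCompact K) {y₀ : P} (hy₀ : y₀ ∈ Dom K) :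
    ENNReal.ofReal (chord K y₀ / 3) * volume (Dom K) ≤ volume K := by
  by_cases hℓ : 0 < chord K y₀
  · rw [volume_eq_lintegral hc hK]
    refine layer_bound (y₀ := y₀) hℓ (measurable_chord hc hK) (chord_nonneg' hK) ?_
    intro c hc' d hd
    have e : y₀ + (1 - c) • (d - y₀) = c • y₀ + (1 - c) • d := by
      rw [smul_sub, sub_smul, sub_smul, one_smul, one_smul]
      abel
    rw [e]
    have h1 := chord_concave hc hK hy₀ hd hc'.1 (sub_nonneg.2 hc'.2) (by ring : c + (1 - c) = 1)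
    have h2 := chord_nonneg hK hd
    nlinarith [hc'.2]
  · have : chord K y₀ / 3 ≤ 0 := by
      have : chord K y₀ ≤ 0 := not_lt.1 hℓ
      linarith
    rw [ENNReal.ofReal_of_nonpos this, zero_mul]
    exact zero_le

section Gauge

variable {D : Set P}

lemma gauge_le_one_iff (hDc : Convex ℝ D) (hDcl : IsClosed D) (hD0 : D ∈ 𝓝 (0:P)) {y : P} :
    gauge D y ≤ 1 ↔ y ∈ D := by
  rw [gauge_le_one_iff_mem_closure hDc hD0, hDcl.closure_eq]

lemma gauge_smul' {r : ℝ} (hr : 0 ≤ r) (y : P) : gauge D (r • y) = r * gauge D y := by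
  rw [gauge_smul_of_nonneg hr y]
  rfl

lemma gauge_pos' (hD0 : D ∈ 𝓝 (0:P)) (hDb : Bornology.IsBounded D) {y : P} (hy : y ≠ 0) :
    0 < gauge D y :=
  (gauge_pos (absorbent_nhds_zero hD0) (NormedSpace.isVonNBounded_iff ℝ |>.2 hDb)).2 hy

lemma rim_mem (hDc : Convex ℝ D) (hDcl : IsClosed D) (hD0 : D ∈ 𝓝 (0:P))
    (hDb : Bornology.IsBounded D) {y : P} (hy : y ≠ 0) :
    (gauge D y)⁻¹ • y ∈ D ∧ gauge D ((gauge D y)⁻¹ • y) = 1 := by
  have hpos := gauge_pos' hD0 hDb hy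
  have e : gauge D ((gauge D y)⁻¹ • y) = 1 := by
    rw [gauge_smul' (inv_nonneg.2 hpos.le), inv_mul_cancel₀ hpos.ne']
  exact ⟨(gauge_le_one_iff hDc hDcl hD0).1 e.le, e⟩

end Gauge

/-- The chord dominates the tent. -/
lemma tent_lower (hc : Convex ℝ K) (hK : IsCompact K) (hD0 : Dom K ∈ 𝓝 (0:P)) {y : P}
    (hy : y ∈ Dom K) :
    (1 - gauge (Dom K) y) * chord K 0 ≤ chord K y := by
  by_cases hy0 : y = 0
  · subst hy0
    simp
  have hDc := dom_convex hc
  have hDcl := (dom_compact hK).isClosed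
  have hDb := (dom_compact hK).isBounded
  obtain ⟨hq, -⟩ := rim_mem hDc hDcl hD0 hDb hy0
  have hpos := gauge_pos' hD0 hDb hy0
  have hle : gauge (Dom K) y ≤ 1 := (gauge_le_one_iff hDc hDcl hD0).2 hy
  have h00 : (0:P) ∈ Dom K := mem_of_mem_nhds hD0
  have h1 := chord_concave hc hK h00 hq (sub_nonneg.2 hle) hpos.le (by ring)
  have e : (1 - gauge (Dom K) y) • (0:P) + gauge (Dom K) y • ((gauge (Dom K) y)⁻¹ • y) = y := by
    rw [smul_zero, zero_add, smul_smul, mul_inv_cancel₀ hpos.ne', one_smul]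
  rw [e] at h1
  have h2 := chord_nonneg hK hq
  nlinarith

/-- Tent profile with apex height `ℓ` at the origin. -/
def tentf (K : Set X) (ℓ : ℝ) (y : P) : ℝ := ℓ * max (1 - gauge (Dom K) y) 0

lemma tentf_le (hc : Convex ℝ K) (hK : IsCompact K) (hD0 : Dom K ∈ 𝓝 (0:P)) {ℓ : ℝ}
    (hℓ : ℓ = chord K 0) (y : P) : tentf K ℓ y ≤ chord K y := by
  have hDc := dom_convex hc
  have hDcl := (dom_compact hK).isClosed
  have hℓ0 : 0 ≤ ℓ := hℓ ▸ chord_nonneg' hK 0
  unfold tentf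
  by_cases hy : y ∈ Dom K
  · have h1 := (gauge_le_one_iff hDc hDcl hD0).2 hy
    rw [max_eq_left (sub_nonneg.2 h1), mul_comm, hℓ]
    exact tent_lower hc hK hD0 hy
  · have h1 : 1 < gauge (Dom K) y := not_le.1 fun h => hy ((gauge_le_one_iff hDc hDcl hD0).1 h)
    rw [max_eq_right (by linarith), mul_zero]
    exact chord_nonneg' hK y

/-- Volume bound from a local excess of the chord over the tent. -/
lemma volume_excess (hc : Convex ℝ K) (hK : IsCompact K) (hD0 : Dom K ∈ 𝓝 (0:P)) {ℓ : ℝ}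
    (hℓ : ℓ = chord K 0) (hℓpos : 0 < ℓ) {G : Set P} (hG : MeasurableSet G) {δ : ℝ} (hδ : 0 ≤ δ)
    (hex : ∀ y ∈ G, tentf K ℓ y + δ ≤ chord K y) :
    ENNReal.ofReal (ℓ / 3) * volume (Dom K) + ENNReal.ofReal δ * volume G ≤ volume K := by
  have hDc := dom_convex hc
  have hcont : Continuous (tentf K ℓ) := by
    have := continuous_gauge hDc hD0
    unfold tentf
    fun_prop
  have hnn : ∀ y, 0 ≤ tentf K ℓ y := fun y =>
    mul_nonneg hℓpos.le (le_max_right _ _)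
  have h1 : ENNReal.ofReal (ℓ / 3) * volume (Dom K) ≤ ∫⁻ y, ENNReal.ofReal (tentf K ℓ y) := by
    refine layer_bound (y₀ := 0) hℓpos hcont.measurable hnn ?_
    intro c hc' d hd
    have hDcl := (dom_compact hK).isClosed
    have hgd := (gauge_le_one_iff hDc hDcl hD0).2 hd
    have e : (0:P) + (1 - c) • (d - 0) = (1 - c) • d := by simp
    rw [e]
    unfold tentf
    rw [gauge_smul' (sub_nonneg.2 hc'.2)]
    have h3 : c ≤ max (1 - (1 - c) * gauge (Dom K) d) 0 := by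
      apply le_max_of_le_left
      nlinarith [hc'.1, hc'.2, gauge_nonneg (s := Dom K) d]
    nlinarith
  have h2 : ∫⁻ y, ENNReal.ofReal (tentf K ℓ y) + G.indicator (fun _ => ENNReal.ofReal δ) y
      ≤ ∫⁻ y, ENNReal.ofReal (chord K y) := by
    refine lintegral_mono fun y => ?_
    by_cases hy : y ∈ G
    · rw [indicator_of_mem hy, ← ENNReal.ofReal_add (hnn y) hδ]
      exact ENNReal.ofReal_le_ofReal (hex y hy)
    · rw [indicator_of_notMem hy, add_zero]
      exact ENNReal.ofReal_le_ofReal (tentf_le hc hK hD0 hℓ y)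
  rw [volume_eq_lintegral hc hK]
  refine le_trans ?_ h2
  rw [lintegral_add_right _ (measurable_const.indicator hG), lintegral_indicator hG,
    setLIntegral_const]
  gcongr

end Vale.Agent.Lib.P243
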