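import Vale.Agent.Lib.P243.Weight

/-!
The integral of the weight along a vertical line.
-/

open MeasureTheory Set Metric
open scoped ENNReal Topology

noncomputable section

namespace Vale.Agent.Lib.P243

variable {K : Set X}

/-- The loss along a central nearly tight chord of length `ℓ`. -/
def kap (r ℓ : ℝ) : ℝ := (r * ℓ / 72) * ((r / 4) ^ 2 * Real.pi * (r * ℓ / 18)) / (7 * (218 * r) ^ 3)

lemma lintegral_line_le {r η : ℝ} (hK : IsCompact K) (hc : Convex ℝ K) (y : P) (hr : 0 < r)
    (hη : 0 ≤ η) (hη1 : η ≤ 1) {a : ℝ} (ha0 : 0 ≤ a)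
    (ha : ∀ z, (y, z) ∈ K → wt K r η (y, z) ≤ a) :
    ∫⁻ z, ENNReal.ofReal (wt K r η (y, z)) ≤ ENNReal.ofReal a * ENNReal.ofReal (chord K y) := by
  have hSl : MeasurableSet (Sl K y) := (sl_compact hK y).measurableSet
  calc ∫⁻ z, ENNReal.ofReal (wt K r η (y, z))
      ≤ ∫⁻ z, (Sl K y).indicator (fun _ => ENNReal.ofReal a) z := by
        refine lintegral_mono fun z => ?_
        by_cases hz : z ∈ Sl K y
        · rw [indicator_of_mem hz]
          exact ENNReal.ofReal_le_ofReal (ha z hz)
        · rw [indicator_of_notMem hz]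
          have h2 : (y, z) ∉ K := hz
          rw [wt_of_not_mem h2]
          simp
    _ = ENNReal.ofReal a * ENNReal.ofReal (chord K y) := by
        rw [lintegral_indicator hSl, setLIntegral_const, volume_sl hc hK y]

/-- The estimate along a central chord when the volume excess is small. -/
lemma central_line (h : Nrm K) {r η : ℝ} (hr : 0 < r) (hr' : r ≤ 1/96) (hη : 0 ≤ η) (hη1 : η ≤ 1)
    {y : P} (hcen : closedBall y (1/48) ⊆ Dom K) (hℓ : 0 < chord K y)
    (hV : volume K < ENNReal.ofReal (chord K y / 3) * volume (Dom K) +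
      ENNReal.ofReal (r / 2 * chord K y / 192 * (rad ^ 2 * Real.pi))) :
    (∫⁻ z, ENNReal.ofReal (wt K r η (y, z))) + ENNReal.ofReal (kap r (chord K y)) ≤
      ENNReal.ofReal (chord K y) := by
  obtain ⟨hc, hK, hin, hout⟩ := h
  have h' : Nrm K := ⟨hc, hK, hin, hout⟩
  have hy : y ∈ Dom K := hcen (mem_closedBall_self (by norm_num))
  set ℓ := chord K y with hℓdef
  set t : X := (y, botf K y) with ht
  set K' := shiftSet K t with hK'
  have hc' : Convex ℝ K' := shift_convex hc t
  have hcK' : IsCompact K' := shift_compact hK t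
  have hdom' : Dom K' = {y' | y' + y ∈ Dom K} := shift_dom t
  have hball' : closedBall (0:P) (1/48) ⊆ Dom K' := by
    intro w hw
    rw [hdom']
    apply hcen
    rw [mem_closedBall_zero_iff] at hw
    rw [mem_closedBall, dist_eq_norm]
    simpa using hw
  have hR' : ∀ y' ∈ Dom K', ‖y'‖ ≤ 9/2 := by
    intro y' hy'
    rw [hdom'] at hy'
    have h1 := h'.dom_bd hy'
    have h2 := h'.dom_bd hy
    calc ‖y'‖ = ‖(y' + y) - y‖ := by simp
      _ ≤ ‖y' + y‖ + ‖y‖ := norm_sub_le _ _
      _ ≤ 9/2 := by linarith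
  have hZ' : ∀ a z a' z', (a, z) ∈ K' → (a', z') ∈ K' → |z - z'| ≤ 9/2 := by
    intro a z a' z' h1 h2
    have h3 : (a + y, z + botf K y) ∈ K := h1
    have h4 : (a' + y, z' + botf K y) ∈ K := h2
    have h5 := h'.z_bd h3
    have h6 := h'.z_bd h4
    rw [abs_le] at h5 h6 ⊢
    constructor <;> linarith [h5.1, h5.2, h6.1, h6.2]
  have hb_mem := bot_mem hK hy
  have ht_mem := top_mem hK hy
  have hb' : botf K' 0 = 0 := by
    have hl : IsLeast (Sl K' 0) 0 := by
      constructor
      · show ((0:P) + y, (0:ℝ) + botf K y) ∈ K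
        simpa using hb_mem
      · intro z hz
        have h3 : ((0:P) + y, z + botf K y) ∈ K := hz
        have h4 : (y, z + botf K y) ∈ K := by simpa using h3
        have := bot_le hK h4
        linarith
    exact hl.csInf_eq
  have ht' : topf K' 0 = ℓ := by
    have hl : IsGreatest (Sl K' 0) ℓ := by
      constructor
      · show ((0:P) + y, ℓ + botf K y) ∈ K
        have : ℓ + botf K y = topf K y := by
          rw [hℓdef]
          unfold chord
          ring
        rw [this]
        simpa using ht_mem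
      · intro z hz
        have h3 : ((0:P) + y, z + botf K y) ∈ K := hz
        have h4 : (y, z + botf K y) ∈ K := by simpa using h3
        have := le_top hK h4
        rw [hℓdef]
        unfold chord
        linarith
    exact hl.csSup_eq
  have hvol' : volume K' = volume K := shift_volume hK t
  have hdomvol : volume (Dom K') = volume (Dom K) := by
    rw [hdom']
    exact measure_preimage_add_right _ _ _
  have hV' : volume K' < ENNReal.ofReal (ℓ / 3) * volume (Dom K') +
      ENNReal.ofReal (r / 2 * ℓ / 192 * (rad ^ 2 * Real.pi)) := by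
    rw [hvol', hdomvol]
    exact hV
  set τ₁ := r * ℓ / 72 with hτ₁
  have hτ₁pos : 0 < τ₁ := by positivity
  set ρ := 218 * r with hρ
  have hρpos : 0 < ρ := by positivity
  set N := 7 * ρ ^ 3 with hN
  have hNpos : 0 < N := by positivity
  set κ₀ := (r / 4) ^ 2 * Real.pi * (r * ℓ / 18) with hκ₀
  have hκ₀pos : 0 ≤ κ₀ := by positivity
  set D : ℝ → ℝ≥0∞ := fun z => ENNReal.ofReal (defReal K r (y, z)) with hD
  have hDm : Measurable D := by
    apply ENNReal.measurable_ofReal.comp
    exact (measurable_defReal hK r).comp (by fun_prop)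
  set bot := botf K y with hbot
  set top := topf K y with htop
  have hℓeq : top - bot = ℓ := rfl
  -- pointwise bound on the two ends
  have hends : ∀ τ ∈ Ico (0:ℝ) τ₁, ENNReal.ofReal (κ₀ / N) ≤ D (top - τ) + D (bot + τ) := by
    intro τ hτ
    have h1 := short_sum hc' hcK' hball' hR' hZ' hℓ hb' ht' hr hr' hV' hτ.1 hτ.2.le
    rw [Sh_shift, Sh_shift] at h1
    have e1 : ((0:P), ℓ - τ) + t = (y, top - τ) := by
      rw [ht, Prod.mk_add_mk]
      congr 1
      · simp
      · rw [← hℓeq]
        ring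
    have e2 : ((0:P), τ) + t = (y, bot + τ) := by
      rw [ht, Prod.mk_add_mk]
      congr 1
      · simp
      · ring
    rw [e1, e2] at h1
    simp only [hD]
    rw [ofReal_defReal hr, ofReal_defReal hr, ENNReal.div_add_div_same,
      ENNReal.ofReal_div_of_pos hNpos]
    exact ENNReal.div_le_div_right h1 _
  -- integrating over the parameter
  have hint : ENNReal.ofReal (κ₀ / N) * ENNReal.ofReal τ₁ ≤
      ∫⁻ τ in Ico (0:ℝ) τ₁, D (top - τ) + D (bot + τ) := by
    calc ENNReal.ofReal (κ₀ / N) * ENNReal.ofReal τ₁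
        = ∫⁻ _ in Ico (0:ℝ) τ₁, ENNReal.ofReal (κ₀ / N) := by
          rw [setLIntegral_const, Real.volume_Ico, sub_zero]
      _ ≤ _ := setLIntegral_mono' measurableSet_Ico hends
  have hDm1 : Measurable fun τ : ℝ => D (top - τ) := hDm.comp (by fun_prop)
  have hDm2 : Measurable fun τ : ℝ => D (bot + τ) := hDm.comp (by fun_prop)
  rw [lintegral_add_left hDm1] at hint
  have hchange1 : ∫⁻ τ in Ico (0:ℝ) τ₁, D (bot + τ) = ∫⁻ z in Ico bot (bot + τ₁), D z := by
    have hmp := measurePreserving_add_left (volume : Measure ℝ) bot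
    have hpre : (fun τ => bot + τ) ⁻¹' Ico bot (bot + τ₁) = Ico 0 τ₁ := by
      ext τ
      simp only [mem_preimage, mem_Ico]
      constructor
      · rintro ⟨h1, h2⟩
        constructor <;> linarith
      · rintro ⟨h1, h2⟩
        constructor <;> linarith
    rw [← hpre]
    exact hmp.setLIntegral_comp_preimage measurableSet_Ico hDm
  have hchange2 : ∫⁻ τ in Ico (0:ℝ) τ₁, D (top - τ) = ∫⁻ z in Ioc (top - τ₁) top, D z := by
    have hmp := (volume : Measure ℝ).measurePreserving_sub_left top
    have hpre : (fun τ => top - τ) ⁻¹' Ioc (top - τ₁) top = Ico 0 τ₁ := by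
      ext τ
      simp only [mem_preimage, mem_Ioc, mem_Ico]
      constructor
      · rintro ⟨h1, h2⟩
        constructor <;> linarith
      · rintro ⟨h1, h2⟩
        constructor <;> linarith
    rw [← hpre]
    exact hmp.setLIntegral_comp_preimage measurableSet_Ioc hDm
  rw [hchange1, hchange2] at hint
  -- the chord contains the two end intervals
  have hτ₁small : τ₁ ≤ ℓ / 2 := by
    have : r ≤ 1 := by linarith
    rw [hτ₁]
    nlinarith
  have hSl : Sl K y = Icc bot top := sl_eq_Icc hc hK hy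
  have hdisj : Disjoint (Ioc (top - τ₁) top) (Ico bot (bot + τ₁)) := by
    rw [Set.disjoint_left]
    intro z hz1 hz2
    have h1 := hz1.1
    have h2 := hz2.2
    linarith
  have hsum : (∫⁻ z in Ioc (top - τ₁) top, D z) + (∫⁻ z in Ico bot (bot + τ₁), D z) ≤
      ∫⁻ z in Sl K y, D z := by
    rw [← lintegral_union measurableSet_Ico hdisj]
    apply lintegral_mono_set
    rw [hSl]
    apply union_subset
    · intro z hz
      exact ⟨by linarith [hz.1], hz.2⟩
    · intro z hz
      exact ⟨hz.1, by linarith [hz.2]⟩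
  have hκ : ENNReal.ofReal (kap r ℓ) ≤ ∫⁻ z in Sl K y, D z := by
    refine le_trans ?_ (hint.trans hsum)
    rw [← ENNReal.ofReal_mul (by positivity)]
    apply ENNReal.ofReal_le_ofReal
    apply le_of_eq
    unfold kap
    rw [← hρ, ← hN]
    ring
  -- pointwise bound for the weight
  have hSlm : MeasurableSet (Sl K y) := (sl_compact hK y).measurableSet
  have hwtm : Measurable fun z : ℝ => ENNReal.ofReal (wt K r η (y, z)) := by
    apply ENNReal.measurable_ofReal.comp
    exact (measurable_wt hK r η).comp (by fun_prop)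
  have hrestrict : ∫⁻ z, ENNReal.ofReal (wt K r η (y, z)) =
      ∫⁻ z in Sl K y, ENNReal.ofReal (wt K r η (y, z)) := by
    rw [← lintegral_indicator hSlm]
    refine lintegral_congr fun z => ?_
    by_cases hz : z ∈ Sl K y
    · rw [indicator_of_mem hz]
    · rw [indicator_of_notMem hz]
      have h2 : (y, z) ∉ K := hz
      rw [wt_of_not_mem h2]
      simp
  have hfinal : (∫⁻ z in Sl K y, ENNReal.ofReal (wt K r η (y, z))) + (∫⁻ z in Sl K y, D z) ≤
      ENNReal.ofReal ℓ := by
    rw [← lintegral_add_left hwtm]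
    calc ∫⁻ z in Sl K y, ENNReal.ofReal (wt K r η (y, z)) + D z
        ≤ ∫⁻ _ in Sl K y, 1 := by
          refine setLIntegral_mono' hSlm fun z hz => ?_
          have h2 : (y, z) ∈ K := hz
          have h3 := wt_add_def_le (K := K) hr hη hη1 h2
          simp only [hD]
          rw [← ENNReal.ofReal_add (wt_nonneg hr hη hη1 _) (defReal_nonneg hr _),
            ← ENNReal.ofReal_one]
          exact ENNReal.ofReal_le_ofReal h3
      _ = ENNReal.ofReal ℓ := by
          rw [setLIntegral_const, one_mul, volume_sl hc hK y]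
  rw [hrestrict]
  exact le_trans (by gcongr) hfinal

/-- Numerical conditions on the parameters. -/
structure Par (r η : ℝ) : Prop where
  r_pos : 0 < r
  r_le : r ≤ 1/96
  η_pos : 0 < η
  η_le : η ≤ 1/2
  thresh : 4224 * η ≤ r * (rad ^ 2 * Real.pi)

lemma Nrm.chord_zero (h : Nrm K) : 1/4 ≤ chord K 0 := by
  have h1 : ((0:P), (1/8:ℝ)) ∈ K := h.2.2.1 _ (by simp [nsq])
  have h2 : ((0:P), (-1/8:ℝ)) ∈ K := h.2.2.1 _ (by norm_num [nsq])
  have := chord_ge h.2.1 h1 h2
  linarith

lemma Nrm.zero_mem_dom (h : Nrm K) : (0:P) ∈ Dom K :=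
  h.dom_ball (mem_closedBall_self (by norm_num))

lemma Nrm.area_pos (h : Nrm K) : volume (Dom K) ≠ 0 := by
  intro h0
  have h1 : volume (closedBall (0:P) (1/8)) ≤ volume (Dom K) := measure_mono h.dom_ball
  rw [h0, EuclideanSpace.volume_closedBall_fin_two] at h1
  have h2 : (0:ℝ≥0∞) < ENNReal.ofReal (1/8) ^ 2 * ENNReal.ofReal Real.pi := by
    apply ENNReal.mul_pos
    · exact pow_ne_zero 2 (ENNReal.ofReal_pos.2 (by norm_num)).ne'
    · exact (ENNReal.ofReal_pos.2 Real.pi_pos).ne'
  exact absurd h1 (not_le.2 h2)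

lemma Nrm.area_le (h : Nrm K) : volume (Dom K) ≤ ENNReal.ofReal 16 := by
  have hsub : Dom K ⊆ closedBall (0:P) (9/4) := by
    intro y hy
    rw [mem_closedBall_zero_iff]
    exact h.dom_bd hy
  refine (measure_mono hsub).trans ?_
  rw [EuclideanSpace.volume_closedBall_fin_two, ← ENNReal.ofReal_pow (by norm_num),
    ← ENNReal.ofReal_mul (by positivity)]
  apply ENNReal.ofReal_le_ofReal
  have := Real.pi_lt_d2
  nlinarith

lemma Nrm.vol_pos (h : Nrm K) : volume K ≠ 0 := by
  intro h0
  have h1 := tent_ineq h.1 h.2.1 h.zero_mem_dom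
  rw [h0] at h1
  have h2 : ENNReal.ofReal (chord K 0 / 3) ≠ 0 := by
    have := h.chord_zero
    exact (ENNReal.ofReal_pos.2 (by linarith)).ne'
  have h3 := le_antisymm h1 zero_le
  rcases mul_eq_zero.1 h3 with h4 | h4
  · exact h2 h4
  · exact h.area_pos h4

/-- The integral of the weight along every vertical line. -/
theorem line_bound (h : Nrm K) {r η : ℝ} (hp : Par r η) (y : P) :
    (∫⁻ z, ENNReal.ofReal (wt K r η (y, z))) * volume (Dom K) ≤
      ENNReal.ofReal (3 * (1 - η)) * volume K := by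
  obtain ⟨hr, hr', hη, hη2, hth⟩ := hp
  have hη1 : η ≤ 1 := by linarith
  have hc := h.1
  have hK := h.2.1
  have hA0 := h.area_pos
  have hAtop : volume (Dom K) ≠ ⊤ := ne_top_of_le_ne_top ENNReal.ofReal_ne_top h.area_le
  have hV0 := h.vol_pos
  have hVtop : volume K ≠ ⊤ := hK.measure_lt_top.ne
  set Ar := (volume (Dom K)).toReal with hAr
  set Vr := (volume K).toReal with hVr
  have hArpos : 0 < Ar := ENNReal.toReal_pos hA0 hAtop
  have hVrpos : 0 < Vr := ENNReal.toReal_pos hV0 hVtop
  have hArle : Ar ≤ 16 := ENNReal.toReal_le_of_le_ofReal (by norm_num) h.area_le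
  have hAe : volume (Dom K) = ENNReal.ofReal Ar := (ENNReal.ofReal_toReal hAtop).symm
  have hVe : volume K = ENNReal.ofReal Vr := (ENNReal.ofReal_toReal hVtop).symm
  set Lam := 3 * Vr / Ar with hLam
  have hLamV : Vr = Lam * Ar / 3 := by
    rw [hLam]
    field_simp
  have htent : ∀ y' ∈ Dom K, chord K y' ≤ Lam := by
    intro y' hy'
    have h1 := tent_ineq hc hK hy'
    rw [hAe, hVe, ← ENNReal.ofReal_mul (div_nonneg (chord_nonneg hK hy') (by norm_num))] at h1
    have h2 := (ENNReal.ofReal_le_ofReal_iff hVrpos.le).1 h1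
    rw [hLam, le_div_iff₀ hArpos]
    linarith
  have hLam14 : 1/4 ≤ Lam := le_trans h.chord_zero (htent 0 h.zero_mem_dom)
  -- it suffices to bound the line integral
  suffices hI : ∫⁻ z, ENNReal.ofReal (wt K r η (y, z)) ≤ ENNReal.ofReal ((1 - η) * Lam) by
    calc (∫⁻ z, ENNReal.ofReal (wt K r η (y, z))) * volume (Dom K)
        ≤ ENNReal.ofReal ((1 - η) * Lam) * ENNReal.ofReal Ar := by
          rw [hAe]
          gcongr
      _ = ENNReal.ofReal (3 * (1 - η)) * volume K := by
          rw [hVe, ← ENNReal.ofReal_mul (by positivity), ← ENNReal.ofReal_mul (by nlinarith)]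
          congr 1
          rw [hLamV]
          ring
  by_cases hy : y ∈ Dom K
  swap
  · have : ∫⁻ z, ENNReal.ofReal (wt K r η (y, z)) = 0 := by
      have h0 : (fun z => ENNReal.ofReal (wt K r η (y, z))) = fun _ => 0 := by
        funext z
        have h2 : (y, z) ∉ K := fun h3 => hy (mem_dom_of_mem h3)
        simp [wt_of_not_mem h2]
      simp [h0]
    rw [this]
    exact zero_le
  set ℓ := chord K y with hℓ
  have hℓLam : ℓ ≤ Lam := htent y hy
  have hℓ0 : 0 ≤ ℓ := chord_nonneg hK hy
  by_cases htight : ℓ ≤ (1 - η) * Lam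
  · -- short chord
    have h1 := lintegral_line_le hK hc y hr hη.le hη1 (a := 1) (by norm_num)
      (fun z _ => wt_le_one hr hη.le hη1 _)
    rw [ENNReal.ofReal_one, one_mul] at h1
    exact h1.trans (ENNReal.ofReal_le_ofReal htight)
  have htight' : (1 - η) * Lam < ℓ := not_le.1 htight
  have hLam2 : Lam ≤ 2 * ℓ := by nlinarith
  have hℓ18 : 1/8 ≤ ℓ := by linarith
  have hℓpos : 0 < ℓ := by linarith
  by_cases hcen : closedBall y (1/48) ⊆ Dom K
  swap
  · -- chord close to the rim lies in the shell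
    have hshell : ∀ z, (y, z) ∈ K → wt K r η (y, z) ≤ 1 - η := by
      intro z _
      apply wt_le_shell hr hη.le hη1
      intro hin
      apply hcen
      intro y' hy'
      rw [mem_closedBall, dist_eq_norm] at hy'
      have hkin : (6/5 : ℝ) • ((y, z) : X) ∈ K := hin
      have hw : ((6 : ℝ) • (y' - y), (0:ℝ)) ∈ K := by
        apply h.2.2.1
        unfold nsq
        simp only
        rw [norm_smul]
        have h3 : ‖(6:ℝ)‖ = 6 := by norm_num
        rw [h3]
        have h4 : 6 * ‖y' - y‖ ≤ 1/8 := by linarith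
        have h5 : (6 * ‖y' - y‖) ^ 2 ≤ (1/8) ^ 2 := pow_le_pow_left₀ (by positivity) h4 2
        linarith
      have h6 := hc hkin hw (by norm_num : (0:ℝ) ≤ 5/6) (by norm_num : (0:ℝ) ≤ 1/6) (by norm_num)
      have h7 : (5/6 : ℝ) • ((6/5 : ℝ) • ((y, z) : X)) + (1/6 : ℝ) • ((6 : ℝ) • (y' - y), (0:ℝ)) =
          (y', z) := by
        ext1
        · simp only [Prod.fst_add, Prod.smul_fst, smul_smul]
          norm_num
        · simp only [Prod.snd_add, Prod.smul_snd, smul_smul]
          norm_num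
      rw [h7] at h6
      exact mem_dom_of_mem h6
    have h1 := lintegral_line_le hK hc y hr hη.le hη1 (a := 1 - η) (by linarith) hshell
    refine h1.trans ?_
    rw [← ENNReal.ofReal_mul (by linarith)]
    apply ENNReal.ofReal_le_ofReal
    exact mul_le_mul_of_nonneg_left hℓLam (by linarith)
  -- central nearly tight chord
  set C := rad ^ 2 * Real.pi with hC
  have hCpos : 0 < C := by
    have := rad_pos
    positivity
  have hVlt : volume K < ENNReal.ofReal (ℓ / 3) * volume (Dom K) +
      ENNReal.ofReal (r / 2 * ℓ / 192 * C) := by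
    rw [hVe, hAe, ← ENNReal.ofReal_mul (by positivity), ← ENNReal.ofReal_add (by positivity)
      (by positivity), ENNReal.ofReal_lt_ofReal_iff (by positivity)]
    have h1 : Lam - ℓ < η * Lam := by linarith
    have h2 : Ar / 3 * (Lam - ℓ) < Ar / 3 * (η * Lam) :=
      mul_lt_mul_of_pos_left h1 (by positivity)
    have h3 : Ar / 3 * (η * Lam) ≤ 16 / 3 * (η * (2 * ℓ)) := by
      apply mul_le_mul (by linarith) _ (by positivity) (by norm_num)
      exact mul_le_mul_of_nonneg_left hLam2 hη.le
    have h4 : 16 / 3 * (η * (2 * ℓ)) ≤ r / 2 * ℓ / 192 * C := by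
      have h5 : 4224 * η * ℓ ≤ r * C * ℓ := mul_le_mul_of_nonneg_right hth hℓ0
      nlinarith
    rw [hLamV]
    nlinarith
  have hI := central_line h hr hr' hη.le hη1 hcen hℓpos hVlt
  have hκ : 2 * η * ℓ ≤ kap r ℓ := by
    have e : kap r ℓ = r * Real.pi * ℓ ^ 2 / (72 * 16 * 18 * 7 * 218 ^ 3) := by
      unfold kap
      field_simp
      ring
    rw [e, le_div_iff₀ (by norm_num)]
    have h5 : 4224 * η ≤ r * (1 / 200000000 ^ 2 * Real.pi) := by
      have : rad ^ 2 = 1 / 200000000 ^ 2 := by
        unfold rad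
        norm_num
      rw [hC, this] at hth
      exact hth
    have hrpi : 0 < r * Real.pi := mul_pos hr Real.pi_pos
    have h6 : η ≤ r * Real.pi * (1 / 200000000 ^ 2 / 4224) := by nlinarith
    have h7 : 2 * η * ℓ * (72 * 16 * 18 * 7 * 218 ^ 3) ≤
        2 * (r * Real.pi * (1 / 200000000 ^ 2 / 4224)) * ℓ * (72 * 16 * 18 * 7 * 218 ^ 3) := by
      gcongr
    refine h7.trans ?_
    have h8 : 0 ≤ r * Real.pi * ℓ := by positivity
    have h9 : (2 * (1 / 200000000 ^ 2 / 4224) * (72 * 16 * 18 * 7 * 218 ^ 3) : ℝ) ≤ ℓ := by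
      refine le_trans ?_ hℓ18
      norm_num
    calc 2 * (r * Real.pi * (1 / 200000000 ^ 2 / 4224)) * ℓ * (72 * 16 * 18 * 7 * 218 ^ 3)
        = r * Real.pi * ℓ * (2 * (1 / 200000000 ^ 2 / 4224) * (72 * 16 * 18 * 7 * 218 ^ 3)) := by
          ring
      _ ≤ r * Real.pi * ℓ * ℓ := mul_le_mul_of_nonneg_left h9 h8
      _ = r * Real.pi * ℓ ^ 2 := by ring
  have hkapnn : 0 ≤ kap r ℓ := by
    unfold kap
    positivity
  have hI2 : ∫⁻ z, ENNReal.ofReal (wt K r η (y, z)) ≤ ENNReal.ofReal (ℓ - kap r ℓ) := by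
    rw [ENNReal.ofReal_sub _ hkapnn]
    exact ENNReal.le_sub_of_add_le_right ENNReal.ofReal_ne_top hI
  refine hI2.trans (ENNReal.ofReal_le_ofReal ?_)
  have : η * Lam ≤ η * (2 * ℓ) := mul_le_mul_of_nonneg_left hLam2 hη.le
  linarith

end Vale.Agent.Lib.P243
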