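import Vale.Agent.Lib.P243.Rot

/-!
The total mass of the short directions.
-/

open MeasureTheory Set Metric Module
open scoped ENNReal Topology

noncomputable section

namespace Vale.Agent.Lib.P243

variable {K : Set X}

/-- Points of `K` over which the vertical chord is short. -/
lemma thin_dom_volume (h : Nrm K) {τ : ℝ} (hτ : 0 < τ) :
    volume (Dom K ∩ {y | chord K y < τ}) ≤
      ENNReal.ofReal (2 * τ / chord K 0) * volume (Dom K) := by
  have hc := h.1
  have hK := h.2.1
  set L := chord K 0 with hL
  have hLpos : 0 < L := by linarith [h.chord_zero]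
  set D := Dom K with hD
  have hDm : MeasurableSet D := (dom_compact hK).measurableSet
  have hAtop : volume D ≠ ⊤ := (dom_compact hK).measure_lt_top.ne
  set B := D ∩ {y | chord K y < τ} with hB
  have hBm : MeasurableSet B :=
    hDm.inter (measurableSet_lt (measurable_chord hc hK) measurable_const)
  have hBD : B ⊆ D := inter_subset_left
  by_cases hcase : L ≤ τ
  · refine (measure_mono hBD).trans ?_
    calc volume D = ENNReal.ofReal 1 * volume D := by simp
      _ ≤ ENNReal.ofReal (2 * τ / L) * volume D := by
        gcongr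
        rw [le_div_iff₀ hLpos]
        linarith
  have hlt : τ < L := not_le.1 hcase
  set c := τ / L with hc'
  have hc0 : 0 < c := div_pos hτ hLpos
  have hc1 : c < 1 := (div_lt_one hLpos).2 hlt
  set E := AffineMap.homothety (0:P) (1 - c) '' D with hE
  have hEm : MeasurableSet E := by
    apply IsCompact.measurableSet
    exact (dom_compact hK).image (AffineMap.homothety (0:P) (1 - c)).continuous_of_finiteDimensional
  have hEval : ∀ d, AffineMap.homothety (0:P) (1 - c) d = (1 - c) • d := by
    intro d
    simp [AffineMap.homothety_apply]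
  have h00 := h.zero_mem_dom
  have hED : E ⊆ D := by
    rintro _ ⟨d, hd, rfl⟩
    rw [hEval]
    have := (dom_convex hc) h00 hd hc0.le (sub_nonneg.2 hc1.le) (by ring)
    simpa using this
  have hEvol : volume E = ENNReal.ofReal ((1 - c) ^ 2) * volume D := by
    rw [hE, Measure.addHaar_image_homothety, finrank_euclideanSpace_fin,
      abs_of_nonneg (by positivity)]
  have hdisj : Disjoint B E := by
    rw [Set.disjoint_left]
    rintro y ⟨_, hy⟩ ⟨d, hd, rfl⟩
    rw [hEval] at hy
    have h1 := chord_concave hc hK h00 hd hc0.le (sub_nonneg.2 hc1.le) (by ring)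
    have h2 := chord_nonneg hK hd
    simp only [smul_zero, zero_add] at h1
    have h3 : chord K ((1 - c) • d) < τ := hy
    have h4 : c * L = τ := by
      rw [hc']
      field_simp
    have h5 : 0 ≤ (1 - c) * chord K d := mul_nonneg (sub_nonneg.2 hc1.le) h2
    rw [← hL] at h1
    linarith
  have hsum : volume B + volume E ≤ volume D := by
    rw [← measure_union hdisj hEm]
    exact measure_mono (union_subset hBD hED)
  have hBtop : volume B ≠ ⊤ := ne_top_of_le_ne_top hAtop (measure_mono hBD)
  have hEtop : volume E ≠ ⊤ := ne_top_of_le_ne_top hAtop (measure_mono hED)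
  set Ar := (volume D).toReal with hAr
  have hAr0 : 0 ≤ Ar := ENNReal.toReal_nonneg
  have hDe : volume D = ENNReal.ofReal Ar := (ENNReal.ofReal_toReal hAtop).symm
  have hsumr : (volume B).toReal + (volume E).toReal ≤ Ar := by
    rw [← ENNReal.toReal_add hBtop hEtop]
    exact ENNReal.toReal_mono hAtop hsum
  have hEr : (volume E).toReal = (1 - c) ^ 2 * Ar := by
    rw [hEvol, ENNReal.toReal_mul, ENNReal.toReal_ofReal (by positivity)]
  have hBe : volume B = ENNReal.ofReal (volume B).toReal := (ENNReal.ofReal_toReal hBtop).symm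
  rw [hBe, hDe, ← ENNReal.ofReal_mul (by positivity)]
  apply ENNReal.ofReal_le_ofReal
  have h2c : 2 * τ / L = 2 * c := by
    rw [hc']
    ring
  rw [h2c]
  rw [hEr] at hsumr
  nlinarith [sq_nonneg c]

/-- Volume of the set of points whose vertical chord is short. -/
lemma single_dir (h : Nrm K) {t : ℝ} (ht : 0 < t) :
    volume {x : X | x ∈ K ∧ x + ((0:P), t) ∉ K ∧ x - ((0:P), t) ∉ K} ≤
      ENNReal.ofReal (384 * t ^ 2) * volume K := by
  have hc := h.1
  have hK := h.2.1
  set L := chord K 0 with hL
  have hL14 : 1/4 ≤ L := h.chord_zero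
  have hLpos : 0 < L := by linarith
  set τ := 2 * t with hτ
  have hτpos : 0 < τ := by positivity
  set B := Dom K ∩ {y | chord K y < τ} with hB
  have hBm : MeasurableSet B := (dom_compact hK).measurableSet.inter
    (measurableSet_lt (measurable_chord hc hK) measurable_const)
  set T : Set X := {x | x ∈ K ∧ chord K x.1 < τ} with hT
  have hTm : MeasurableSet T :=
    hK.measurableSet.inter (measurableSet_lt ((measurable_chord hc hK).comp measurable_fst)
      measurable_const)
  have hsub : {x : X | x ∈ K ∧ x + ((0:P), t) ∉ K ∧ x - ((0:P), t) ∉ K} ⊆ T := by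
    rintro ⟨y, z⟩ ⟨hx, h1, h2⟩
    refine ⟨hx, ?_⟩
    have hy : y ∈ Dom K := mem_dom_of_mem hx
    have hz1 := bot_le hK hx
    have hz2 := le_top hK hx
    have h3 : topf K y < z + t := by
      by_contra hcon
      apply h1
      have hmem : z + t ∈ Sl K y := by
        rw [sl_eq_Icc hc hK hy]
        exact ⟨by linarith, not_lt.1 hcon⟩
      have e : ((y, z) : X) + ((0:P), t) = (y, z + t) := by simp [Prod.mk_add_mk]
      rw [e]
      exact hmem
    have h4 : z - t < botf K y := by
      by_contra hcon
      apply h2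
      have hmem : z - t ∈ Sl K y := by
        rw [sl_eq_Icc hc hK hy]
        exact ⟨not_lt.1 hcon, by linarith⟩
      have e : ((y, z) : X) - ((0:P), t) = (y, z - t) := by simp [Prod.mk_sub_mk]
      rw [e]
      exact hmem
    show chord K y < τ
    unfold chord
    rw [hτ]
    linarith
  have hTvol : volume T ≤ ENNReal.ofReal τ * volume B := by
    rw [Measure.volume_eq_prod, Measure.prod_apply hTm]
    calc ∫⁻ y, volume (Prod.mk y ⁻¹' T)
        ≤ ∫⁻ y, B.indicator (fun _ => ENNReal.ofReal τ) y := by
          refine lintegral_mono fun y => ?_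
          by_cases hy : y ∈ B
          · rw [indicator_of_mem hy]
            have hsub2 : Prod.mk y ⁻¹' T ⊆ Sl K y := fun z hz => hz.1
            refine (measure_mono hsub2).trans ?_
            rw [volume_sl hc hK y]
            exact ENNReal.ofReal_le_ofReal hy.2.le
          · rw [indicator_of_notMem hy]
            have : Prod.mk y ⁻¹' T = ∅ := by
              ext z
              simp only [mem_preimage, mem_empty_iff_false, iff_false]
              rintro ⟨h1, h2⟩
              exact hy ⟨mem_dom_of_mem h1, h2⟩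
            rw [this]
            simp
      _ = ENNReal.ofReal τ * volume B := by
          rw [lintegral_indicator hBm, setLIntegral_const]
  have hB1 := thin_dom_volume h hτpos
  have hA := tent_ineq hc hK h.zero_mem_dom
  rw [← hL] at hA hB1
  have hA2 : volume (Dom K) ≤ ENNReal.ofReal (3 / L) * volume K := by
    calc volume (Dom K) = ENNReal.ofReal (3 / L) * (ENNReal.ofReal (L / 3) * volume (Dom K)) := by
          rw [← mul_assoc, ← ENNReal.ofReal_mul (by positivity)]
          have : 3 / L * (L / 3) = 1 := by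
            field_simp
          rw [this]
          simp
      _ ≤ _ := by gcongr
  calc volume {x : X | x ∈ K ∧ x + ((0:P), t) ∉ K ∧ x - ((0:P), t) ∉ K}
      ≤ volume T := measure_mono hsub
    _ ≤ ENNReal.ofReal τ * volume B := hTvol
    _ ≤ ENNReal.ofReal τ * (ENNReal.ofReal (2 * τ / L) * (ENNReal.ofReal (3 / L) * volume K)) := by
        gcongr
        exact hB1.trans (by gcongr)
    _ = ENNReal.ofReal (τ * (2 * τ / L) * (3 / L)) * volume K := by
        rw [← mul_assoc, ← mul_assoc, ← ENNReal.ofReal_mul (by positivity),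
          ← ENNReal.ofReal_mul (by positivity)]
    _ ≤ ENNReal.ofReal (384 * t ^ 2) * volume K := by
        refine mul_le_mul' (ENNReal.ofReal_le_ofReal ?_) le_rfl
        have e : τ * (2 * τ / L) * (3 / L) = 24 * t ^ 2 / L ^ 2 := by
          rw [hτ]
          field_simp
          ring
        rw [e, div_le_iff₀ (by positivity)]
        have h5 : 1/16 ≤ L ^ 2 := by nlinarith
        have h6 : 0 ≤ t ^ 2 := by positivity
        nlinarith

/-- The volume of points with a given short direction. -/
lemma single_dir_rot (h : Nrm K) {v : X} (hv : v ≠ 0) {ρ : ℝ} (hρ : 0 ≤ ρ) (hvρ : nsq v ≤ ρ ^ 2) :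
    volume {x : X | x ∈ K ∧ x + v ∉ K ∧ x - v ∉ K} ≤ ENNReal.ofReal (384 * ρ ^ 2) * volume K := by
  obtain ⟨R, hR, hRv⟩ := exists_rot hv
  have hK := h.2.1
  have hcont : Continuous R := R.toLinearMap.continuous_of_finiteDimensional
  set s := Real.sqrt (nsq v) with hs
  have hnsq : 0 < nsq v := by
    have h1 : (WithLp.toLp 2 v : Y) ≠ 0 := by
      intro h2
      apply hv
      have : WithLp.ofLp (WithLp.toLp 2 v : Y) = 0 := by rw [h2]; rfl
      simpa using this
    rw [← norm_sq_toLp]
    have := norm_pos_iff.2 h1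
    positivity
  have hspos : 0 < s := Real.sqrt_pos.2 hnsq
  have hs2 : s ^ 2 = nsq v := Real.sq_sqrt hnsq.le
  set K' := rotSet R K with hK'
  have hnrm : Nrm K' := h.rot hR
  set S' : Set X := {x : X | x ∈ K' ∧ x + ((0:P), s) ∉ K' ∧ x - ((0:P), s) ∉ K'} with hS'
  have hS'm : MeasurableSet S' := by
    have hK'c := hnrm.2.1
    have h1 : MeasurableSet {x : X | x + ((0:P), s) ∈ K'} :=
      (hK'c.isClosed.preimage (by fun_prop : Continuous fun x : X => x + ((0:P), s))).measurableSet
    have h2 : MeasurableSet {x : X | x - ((0:P), s) ∈ K'} :=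
      (hK'c.isClosed.preimage (by fun_prop : Continuous fun x : X => x - ((0:P), s))).measurableSet
    exact hK'c.measurableSet.inter (h1.compl.inter h2.compl)
  have hpre : {x : X | x ∈ K ∧ x + v ∉ K ∧ x - v ∉ K} = R ⁻¹' S' := by
    ext x
    have m1 : ∀ w, w ∈ K' ↔ R.symm w ∈ K := fun w => mem_rotSet
    show (x ∈ K ∧ x + v ∉ K ∧ x - v ∉ K) ↔
      (R x ∈ K' ∧ R x + ((0:P), s) ∉ K' ∧ R x - ((0:P), s) ∉ K')
    have e1 : R.symm (R x + ((0:P), s)) = x + v := by
      rw [← hRv, ← map_add, LinearEquiv.symm_apply_apply]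
    have e2 : R.symm (R x - ((0:P), s)) = x - v := by
      rw [← hRv, ← map_sub, LinearEquiv.symm_apply_apply]
    rw [m1, m1, m1, e1, e2, LinearEquiv.symm_apply_apply]
  rw [hpre, hR.2.measure_preimage hS'm.nullMeasurableSet]
  have h1 := single_dir hnrm hspos
  rw [rot_volume hR hK] at h1
  refine h1.trans (mul_le_mul' (ENNReal.ofReal_le_ofReal ?_) le_rfl)
  rw [hs2]
  linarith

/-- The integral over `K` of the measure of short directions. -/
lemma defect_integral (h : Nrm K) {ρ : ℝ} (hρ : 0 < ρ) :
    ∫⁻ x in K, volume (Sh K ρ x) ≤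
      ENNReal.ofReal (7 * ρ ^ 3) * (ENNReal.ofReal (384 * ρ ^ 2) * volume K) := by
  have hK := h.2.1
  set Z : Set (X × X) := {p | p.1 ∈ K} ∩ ShT K ρ with hZ
  have hZm : MeasurableSet Z :=
    (hK.measurableSet.preimage measurable_fst).inter (measurableSet_ShT hK ρ)
  have h1 : (volume.prod volume) Z = ∫⁻ x in K, volume (Sh K ρ x) := by
    rw [Measure.prod_apply hZm, ← lintegral_indicator hK.measurableSet]
    refine lintegral_congr fun x => ?_
    by_cases hx : x ∈ K
    · rw [indicator_of_mem hx]
      congr 1
      ext v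
      simp [hZ, hx, Sh, ShT]
    · rw [indicator_of_notMem hx]
      have : Prod.mk x ⁻¹' Z = ∅ := by
        ext v
        simp [hZ, hx]
      rw [this]
      simp
  have h2 := Measure.prod_apply_symm (μ := (volume : Measure X)) (ν := (volume : Measure X)) hZm
  rw [← h1, h2]
  set Bl : Set X := {v : X | nsq v ≤ ρ ^ 2} with hBl
  have hBlm : MeasurableSet Bl := (isClosed_le continuous_nsq continuous_const).measurableSet
  calc ∫⁻ v, volume ((fun x => (x, v)) ⁻¹' Z)
      ≤ ∫⁻ v, Bl.indicator (fun _ => ENNReal.ofReal (384 * ρ ^ 2) * volume K) v := by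
        refine lintegral_mono fun v => ?_
        by_cases hv : v ∈ Bl
        · rw [indicator_of_mem hv]
          by_cases hv0 : v = 0
          · have : (fun x => (x, v)) ⁻¹' Z = ∅ := by
              ext x
              simp only [mem_preimage, mem_empty_iff_false, iff_false]
              rintro ⟨h3, h4⟩
              apply h4.2.1
              simpa [hv0] using h3
            rw [this]
            simp
          · refine le_trans (measure_mono ?_) (single_dir_rot h hv0 hρ.le hv)
            rintro x ⟨h3, h4⟩
            exact ⟨h3, h4.2⟩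
        · rw [indicator_of_notMem hv]
          have : (fun x => (x, v)) ⁻¹' Z = ∅ := by
            ext x
            simp only [mem_preimage, mem_empty_iff_false, iff_false]
            rintro ⟨_, h4⟩
            exact hv h4.1
          rw [this]
          simp
    _ = (ENNReal.ofReal (384 * ρ ^ 2) * volume K) * volume Bl := by
        rw [lintegral_indicator hBlm, setLIntegral_const]
    _ ≤ ENNReal.ofReal (7 * ρ ^ 3) * (ENNReal.ofReal (384 * ρ ^ 2) * volume K) := by
        rw [mul_comm]
        gcongr
        exact volume_Bl_le hρ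

/-- Same, normalized. -/
lemma defReal_integral (h : Nrm K) {r : ℝ} (hr : 0 < r) :
    ∫⁻ x in K, ENNReal.ofReal (defReal K r x) ≤
      ENNReal.ofReal (384 * (218 * r) ^ 2) * volume K := by
  set ρ := 218 * r with hρ
  have hρpos : 0 < ρ := by positivity
  have hN : 0 < 7 * ρ ^ 3 := by positivity
  have hK := h.2.1
  have e : ∀ x, ENNReal.ofReal (defReal K r x) =
      (ENNReal.ofReal (7 * ρ ^ 3))⁻¹ * volume (Sh K ρ x) := by
    intro x
    rw [ofReal_defReal hr, div_eq_mul_inv, mul_comm]
  simp_rw [e]
  rw [lintegral_const_mul _ (measurable_vol_Sh hK ρ)]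
  calc (ENNReal.ofReal (7 * ρ ^ 3))⁻¹ * ∫⁻ x in K, volume (Sh K ρ x)
      ≤ (ENNReal.ofReal (7 * ρ ^ 3))⁻¹ *
        (ENNReal.ofReal (7 * ρ ^ 3) * (ENNReal.ofReal (384 * ρ ^ 2) * volume K)) := by
        gcongr
        exact defect_integral h hρpos
    _ = ENNReal.ofReal (384 * ρ ^ 2) * volume K := by
        rw [← mul_assoc, ENNReal.inv_mul_cancel (ENNReal.ofReal_pos.2 hN).ne' ENNReal.ofReal_ne_top,
          one_mul]

/-- The shell has at most half of the volume. -/
lemma shell_volume (h : Nrm K) : volume (K \ Inner K) ≤ ENNReal.ofReal (1/2) * volume K := by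
  have hK := h.2.1
  have hc := h.1
  have h0 : (0:X) ∈ K := h.2.2.1 0 (by simp [nsq])
  have hsub : Inner K ⊆ K := by
    intro x hx
    have h1 : (6/5 : ℝ) • x ∈ K := hx
    have := hc h1 h0 (by norm_num : (0:ℝ) ≤ 5/6) (by norm_num : (0:ℝ) ≤ 1/6) (by norm_num)
    rw [smul_zero, add_zero, smul_smul] at this
    norm_num at this
    exact this
  have hVtop : volume K ≠ ⊤ := hK.measure_lt_top.ne
  have hvol : volume (Inner K) = ENNReal.ofReal (125/216) * volume K := by
    have : (volume : Measure X).IsAddHaarMeasure := by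
      rw [Measure.volume_eq_prod]
      infer_instance
    have e : Inner K = (fun x : X => (6/5 : ℝ) • x) ⁻¹' K := rfl
    rw [e, Measure.addHaar_preimage_smul _ (by norm_num : (6/5 : ℝ) ≠ 0)]
    have hf : finrank ℝ X = 3 := by
      rw [finrank_prod, finrank_euclideanSpace_fin]
      simp
    rw [hf]
    congr 2
    norm_num
  rw [measure_diff hsub (inner_measurable hK).nullMeasurableSet
    (ne_top_of_le_ne_top hVtop (measure_mono hsub)), hvol]
  set Vr := (volume K).toReal with hVr
  have hVe : volume K = ENNReal.ofReal Vr := (ENNReal.ofReal_toReal hVtop).symm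
  have hVr0 : 0 ≤ Vr := ENNReal.toReal_nonneg
  rw [hVe, ← ENNReal.ofReal_mul (by norm_num), ← ENNReal.ofReal_mul (by norm_num),
    ← ENNReal.ofReal_sub _ (by positivity)]
  apply ENNReal.ofReal_le_ofReal
  nlinarith

/-- Lower bound for the total mass of the weight. -/
lemma mass_lower (h : Nrm K) {r η : ℝ} (hr : 0 < r) (hη : 0 ≤ η) (hη1 : η ≤ 1) :
    volume K ≤ (∫⁻ x, ENNReal.ofReal (wt K r η x)) +
      ENNReal.ofReal (384 * (218 * r) ^ 2) * volume K + ENNReal.ofReal (η / 2) * volume K := by
  have hK := h.2.1
  have hKm := hK.measurableSet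
  have hInm := inner_measurable hK
  have hm1 : Measurable fun x => ENNReal.ofReal (wt K r η x) :=
    ENNReal.measurable_ofReal.comp (measurable_wt hK r η)
  have hm2 : Measurable fun x => ENNReal.ofReal (defReal K r x) :=
    ENNReal.measurable_ofReal.comp (measurable_defReal hK r)
  have hm3 : Measurable ((Inner K)ᶜ.indicator fun _ : X => ENNReal.ofReal η) :=
    measurable_const.indicator hInm.compl
  have hpt : ∀ x ∈ K, (1 : ℝ≥0∞) ≤ ENNReal.ofReal (wt K r η x) + ENNReal.ofReal (defReal K r x) +
      (Inner K)ᶜ.indicator (fun _ => ENNReal.ofReal η) x := by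
    intro x hx
    have h1 := one_le_wt_add (K := K) hr hη hη1 hx
    have h2 : (Inner K)ᶜ.indicator (fun _ => ENNReal.ofReal η) x =
        ENNReal.ofReal ((Inner K)ᶜ.indicator (fun _ => η) x) := by
      by_cases h3 : x ∈ (Inner K)ᶜ
      · rw [indicator_of_mem h3, indicator_of_mem h3]
      · rw [indicator_of_notMem h3, indicator_of_notMem h3]
        simp
    have h4 : 0 ≤ (Inner K)ᶜ.indicator (fun _ => η) x :=
      indicator_nonneg (fun _ _ => hη) x
    rw [h2, ← ENNReal.ofReal_add (wt_nonneg hr hη hη1 x) (defReal_nonneg hr x),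
      ← ENNReal.ofReal_add (add_nonneg (wt_nonneg hr hη hη1 x) (defReal_nonneg hr x)) h4,
      ← ENNReal.ofReal_one]
    exact ENNReal.ofReal_le_ofReal h1
  have hind : ∫⁻ x in K, (Inner K)ᶜ.indicator (fun _ => ENNReal.ofReal η) x ≤
      ENNReal.ofReal (η / 2) * volume K := by
    rw [lintegral_indicator hInm.compl, Measure.restrict_restrict hInm.compl, setLIntegral_const]
    have e : (Inner K)ᶜ ∩ K = K \ Inner K := by
      ext x
      simp [and_comm]
    rw [e]
    calc ENNReal.ofReal η * volume (K \ Inner K)
        ≤ ENNReal.ofReal η * (ENNReal.ofReal (1/2) * volume K) := by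
          gcongr
          exact shell_volume h
      _ = ENNReal.ofReal (η / 2) * volume K := by
          rw [← mul_assoc, ← ENNReal.ofReal_mul hη]
          congr 2
          ring
  calc volume K = ∫⁻ _ in K, 1 := by
        rw [setLIntegral_const, one_mul]
    _ ≤ ∫⁻ x in K, ENNReal.ofReal (wt K r η x) + ENNReal.ofReal (defReal K r x) +
        (Inner K)ᶜ.indicator (fun _ => ENNReal.ofReal η) x :=
        setLIntegral_mono' hKm hpt
    _ = (∫⁻ x in K, ENNReal.ofReal (wt K r η x)) + (∫⁻ x in K, ENNReal.ofReal (defReal K r x)) +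
        ∫⁻ x in K, (Inner K)ᶜ.indicator (fun _ => ENNReal.ofReal η) x := by
        rw [lintegral_add_right _ hm3, lintegral_add_right _ hm2]
    _ ≤ _ := add_le_add (add_le_add (setLIntegral_le_lintegral _ _) (defReal_integral h hr)) hind

end Vale.Agent.Lib.P243
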