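import Vale.Agent.Lib.P243.Transfer

/-!
Normal position: the simplex of maximal volume inside a convex body.
-/

open MeasureTheory Set Metric Module Matrix
open scoped ENNReal Topology

noncomputable section

namespace Vale.Agent.Lib.P243

/-- Euclidean three-space. -/
abbrev E3 := EuclideanSpace ℝ (Fin 3)

/-- The matrix whose columns are the edge vectors of a tetrahedron. -/
def edgeMat (a₀ a₁ a₂ a₃ : E3) : Matrix (Fin 3) (Fin 3) ℝ :=
  Matrix.of fun i j => (![a₁, a₂, a₃] j : E3) i - a₀ i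

lemma continuous_edgeDet :
    Continuous fun t : E3 × E3 × E3 × E3 => |(edgeMat t.1 t.2.1 t.2.2.1 t.2.2.2).det| := by
  apply Continuous.abs
  apply Continuous.matrix_det
  apply continuous_matrix
  intro i j
  fin_cases j <;> simp [edgeMat] <;> fun_prop

/-- A simplex of maximal volume in `K`. -/
lemma exists_max_simplex {K : Set E3} (hK : IsCompact K) (hne : K.Nonempty) :
    ∃ a₀ ∈ K, ∃ a₁ ∈ K, ∃ a₂ ∈ K, ∃ a₃ ∈ K, ∀ b₀ ∈ K, ∀ b₁ ∈ K, ∀ b₂ ∈ K, ∀ b₃ ∈ K,
      |(edgeMat b₀ b₁ b₂ b₃).det| ≤ |(edgeMat a₀ a₁ a₂ a₃).det| := by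
  have hcomp : IsCompact (K ×ˢ K ×ˢ K ×ˢ K) := hK.prod (hK.prod (hK.prod hK))
  have hne' : (K ×ˢ K ×ˢ K ×ˢ K).Nonempty := hne.prod (hne.prod (hne.prod hne))
  obtain ⟨t, ht, hmax⟩ := hcomp.exists_isMaxOn hne' continuous_edgeDet.continuousOn
  refine ⟨t.1, ht.1, t.2.1, ht.2.1, t.2.2.1, ht.2.2.1, t.2.2.2, ht.2.2.2, ?_⟩
  intro b₀ h₀ b₁ h₁ b₂ h₂ b₃ h₃
  exact hmax (a := (b₀, b₁, b₂, b₃)) ⟨h₀, h₁, h₂, h₃⟩

/-- A convex body with interior contains a nondegenerate simplex. -/
lemma max_simplex_pos {K : Set E3} (hint : (interior K).Nonempty) :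
    ∃ a₀ ∈ K, ∃ a₁ ∈ K, ∃ a₂ ∈ K, ∃ a₃ ∈ K, 0 < |(edgeMat a₀ a₁ a₂ a₃).det| := by
  obtain ⟨p, hp⟩ := hint
  obtain ⟨ε, hε, hball⟩ := Metric.isOpen_iff.1 isOpen_interior p hp
  have hmem : ∀ j : Fin 3, p + EuclideanSpace.single j (ε / 2) ∈ K := by
    intro j
    apply interior_subset
    apply hball
    rw [mem_ball, dist_eq_norm]
    have e : p + EuclideanSpace.single j (ε / 2) - p = EuclideanSpace.single j (ε / 2) := by abel
    rw [e, EuclideanSpace.norm_single, Real.norm_eq_abs, abs_of_pos (by positivity)]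
    linarith
  refine ⟨p, interior_subset hp, _, hmem 0, _, hmem 1, _, hmem 2, ?_⟩
  have e : edgeMat p (p + EuclideanSpace.single 0 (ε / 2)) (p + EuclideanSpace.single 1 (ε / 2))
      (p + EuclideanSpace.single 2 (ε / 2)) = (ε / 2) • (1 : Matrix (Fin 3) (Fin 3) ℝ) := by
    ext i j
    fin_cases i <;> fin_cases j <;> simp [edgeMat, Matrix.one_apply]
  rw [e]
  simp
  positivity

/-- Coordinates on `ℝ² × ℝ`. -/
def coordX (x : X) : Fin 3 → ℝ := ![x.1 0, x.1 1, x.2]

lemma coordX_add (x x' : X) : coordX (x + x') = coordX x + coordX x' := by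
  ext i
  fin_cases i <;> simp [coordX]

lemma coordX_smul (a : ℝ) (x : X) : coordX (a • x) = a • coordX x := by
  ext i
  fin_cases i <;> simp [coordX]

lemma coordX_inj {x : X} (h : coordX x = 0) : x = 0 := by
  have h0 := congrFun h 0
  have h1 := congrFun h 1
  have h2 := congrFun h 2
  simp only [coordX, Matrix.cons_val_zero, Matrix.cons_val_one, Matrix.cons_val, Pi.zero_apply] at h0 h1 h2
  ext i
  · fin_cases i
    · simpa using h0
    · simpa using h1
  · simpa using h2

lemma nsq_eq (x : X) : nsq x = (coordX x 0) ^ 2 + (coordX x 1) ^ 2 + (coordX x 2) ^ 2 := by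
  unfold nsq
  rw [EuclideanSpace.real_norm_sq_eq]
  simp [coordX, Fin.sum_univ_two]

/-- The linear map attached to a matrix, from `ℝ² × ℝ` to Euclidean three-space. -/
def matMap (A : Matrix (Fin 3) (Fin 3) ℝ) : X →ₗ[ℝ] E3 where
  toFun x := WithLp.toLp 2 (A *ᵥ coordX x)
  map_add' x x' := by
    rw [coordX_add, mulVec_add]
    rfl
  map_smul' a x := by
    rw [coordX_smul, mulVec_smul]
    rfl

lemma cramer_mulVec_self (A : Matrix (Fin 3) (Fin 3) ℝ) (μ : Fin 3 → ℝ) :
    A.cramer (A *ᵥ μ) = A.det • μ := by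
  rw [cramer_eq_adjugate_mulVec, mulVec_mulVec, adjugate_mul, smul_mulVec, one_mulVec]

lemma matMap_inj {A : Matrix (Fin 3) (Fin 3) ℝ} (hA : A.det ≠ 0) :
    Function.Injective (matMap A) := by
  rw [injective_iff_map_eq_zero]
  intro x hx
  apply coordX_inj
  have h1 : A *ᵥ coordX x = 0 := by
    have : WithLp.ofLp (matMap A x) = 0 := by rw [hx]; rfl
    exact this
  have h2 := cramer_mulVec_self A (coordX x)
  rw [h1, map_zero] at h2
  have h3 : A.det • coordX x = 0 := h2.symm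
  exact (smul_eq_zero.1 h3).resolve_left hA

lemma finrank_X_E3 : finrank ℝ X = finrank ℝ E3 := by
  rw [finrank_prod, finrank_euclideanSpace_fin, finrank_euclideanSpace_fin]
  simp

lemma combo_shift (p u v : E3) {a b : ℝ} (hab : a + b = 1) :
    p + (a • u + b • v) = a • (p + u) + b • (p + v) := by
  have h2 : p + (a • u + b • v) = (a + b) • p + (a • u + b • v) := by
    rw [hab, one_smul]
  rw [h2, add_smul, smul_add, smul_add]
  abel

/-- Bodies admit a normal position. -/
theorem exists_normal {K : Set E3} (hc : Convex ℝ K) (hK : IsCompact K)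
    (hint : (interior K).Nonempty) :
    ∃ (Ξ : X ≃ₗ[ℝ] E3) (p : E3), Nrm {x | p + Ξ x ∈ K} := by
  obtain ⟨c₀, h₀, c₁, h₁, c₂, h₂, c₃, h₃, hpos⟩ := max_simplex_pos hint
  obtain ⟨a₀, ha₀, a₁, ha₁, a₂, ha₂, a₃, ha₃, hmax⟩ := exists_max_simplex hK ⟨c₀, h₀⟩
  set A := edgeMat a₀ a₁ a₂ a₃ with hA
  have hdpos : 0 < |A.det| := lt_of_lt_of_le hpos (hmax c₀ h₀ c₁ h₁ c₂ h₂ c₃ h₃)
  have hd : A.det ≠ 0 := abs_pos.1 hdpos
  set Ξ : X ≃ₗ[ℝ] E3 := LinearMap.linearEquivOfInjective (matMap A) (matMap_inj hd) finrank_X_E3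
    with hΞ
  have hΞa : ∀ x, Ξ x = matMap A x := fun x => rfl
  set c : Fin 3 → ℝ := ![1/4, 1/4, 1/4] with hc'
  set p : E3 := a₀ + WithLp.toLp 2 (A *ᵥ c) with hp
  have hpΞ : ∀ x : X, p + Ξ x = a₀ + WithLp.toLp 2 (A *ᵥ (c + coordX x)) := by
    intro x
    rw [hp, hΞa, mulVec_add, add_assoc]
    rfl
  refine ⟨Ξ, p, ?_, ?_, ?_, ?_⟩
  · -- convexity
    intro x hx x' hx' a b ha hb hab
    have h := hc hx hx' ha hb hab
    show p + Ξ (a • x + b • x') ∈ K
    have e : p + Ξ (a • x + b • x') = a • (p + Ξ x) + b • (p + Ξ x') := by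
      rw [map_add, map_smul, map_smul]
      exact combo_shift p (Ξ x) (Ξ x') hab
    rw [e]
    exact h
  · -- compactness
    have hcontΞ : Continuous Ξ := Ξ.toLinearMap.continuous_of_finiteDimensional
    have hcontS : Continuous Ξ.symm := Ξ.symm.toLinearMap.continuous_of_finiteDimensional
    have himg : {x : X | p + Ξ x ∈ K} = (fun w => Ξ.symm (w - p)) '' K := by
      ext x
      constructor
      · intro hx
        exact ⟨p + Ξ x, hx, by simp⟩
      · rintro ⟨w, hw, rfl⟩
        show p + Ξ (Ξ.symm (w - p)) ∈ K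
        simpa using hw
    rw [himg]
    exact hK.image (by fun_prop)
  · -- the inner ball
    intro v hv
    show p + Ξ v ∈ K
    rw [hpΞ]
    have hn := nsq_eq v
    rw [hn] at hv
    set v₀ := coordX v 0 with hv₀
    set v₁ := coordX v 1 with hv₁
    set v₂ := coordX v 2 with hv₂
    have hb0 : |v₀| ≤ 1/8 := abs_le_of_sq_le_sq (by nlinarith [sq_nonneg v₁, sq_nonneg v₂]) (by norm_num)
    have hb1 : |v₁| ≤ 1/8 := abs_le_of_sq_le_sq (by nlinarith [sq_nonneg v₀, sq_nonneg v₂]) (by norm_num)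
    have hb2 : |v₂| ≤ 1/8 := abs_le_of_sq_le_sq (by nlinarith [sq_nonneg v₀, sq_nonneg v₁]) (by norm_num)
    rw [abs_le] at hb0 hb1 hb2
    have hsum : v₀ + v₁ + v₂ ≤ 1/4 := by
      nlinarith [sq_nonneg (v₀ - v₁), sq_nonneg (v₁ - v₂), sq_nonneg (v₀ - v₂)]
    set w : Fin 4 → ℝ := ![1 - (3/4 + v₀ + v₁ + v₂), 1/4 + v₀, 1/4 + v₁, 1/4 + v₂] with hw
    set z : Fin 4 → E3 := ![a₀, a₁, a₂, a₃] with hz
    have hmem := hc.sum_mem (t := Finset.univ) (w := w) (z := z)
      (by
        intro i _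
        fin_cases i <;> simp [hw] <;> linarith [hb0.1, hb1.1, hb2.1])
      (by
        rw [Fin.sum_univ_four]
        simp [hw]
        ring)
      (by
        intro i _
        fin_cases i <;> simp [hz] <;> assumption)
    have e : ∑ i, w i • z i = a₀ + WithLp.toLp 2 (A *ᵥ (c + coordX v)) := by
      rw [Fin.sum_univ_four]
      ext i
      simp only [hw, hz, hA, edgeMat, hc', PiLp.add_apply, PiLp.smul_apply, smul_eq_mul, mulVec,
        dotProduct, Fin.sum_univ_three]
      simp only [Matrix.of_apply, Pi.add_apply, Matrix.cons_val_zero, Matrix.cons_val_one,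
        Matrix.cons_val]
      simp only [← hv₀, ← hv₁, ← hv₂]
      ring
    rw [e] at hmem
    exact hmem
  · -- the outer ball
    intro v hv
    have hv' : p + Ξ v ∈ K := hv
    rw [hpΞ] at hv'
    set μ := c + coordX v with hμ
    -- each coordinate is bounded by one
    have hcoord : ∀ j : Fin 3, |μ j| ≤ 1 := by
      intro j
      set x := a₀ + WithLp.toLp 2 (A *ᵥ μ) with hx
      have hcr := congrFun (cramer_mulVec_self A μ) j
      rw [cramer_apply] at hcr
      simp only [Pi.smul_apply, smul_eq_mul] at hcr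
      have hup : A.updateCol j (A *ᵥ μ) =
          edgeMat a₀ (if j = 0 then x else a₁) (if j = 1 then x else a₂)
            (if j = 2 then x else a₃) := by
        ext i k
        fin_cases j <;> fin_cases k <;> simp [hA, edgeMat, Matrix.updateCol_apply, hx]
      have hxK : x ∈ K := hv'
      have hb := hmax a₀ ha₀ (if j = 0 then x else a₁) (by split_ifs <;> assumption)
        (if j = 1 then x else a₂) (by split_ifs <;> assumption)
        (if j = 2 then x else a₃) (by split_ifs <;> assumption)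
      rw [← hup, hcr, abs_mul] at hb
      have h2 : |A.det| * |μ j| ≤ |A.det| * 1 := by simpa using hb
      exact le_of_mul_le_mul_left h2 hdpos
    have hcoord' : ∀ j : Fin 3, (coordX v j) ^ 2 ≤ 25/16 := by
      intro j
      have h1 := abs_le.1 (hcoord j)
      have h2 : μ j = 1/4 + coordX v j := by
        rw [hμ, hc']
        fin_cases j <;> simp
      rw [h2] at h1
      nlinarith [h1.1, h1.2]
    show nsq v ≤ _
    rw [nsq_eq]
    have h0 := hcoord' 0
    have h1 := hcoord' 1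
    have h2 := hcoord' 2
    norm_num
    linarith

end Vale.Agent.Lib.P243
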