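import Vale.Agent.Lib.P243.Line

/-!
Rotations of `ℝ² × ℝ` and their action on bodies in normal position.
-/

open MeasureTheory Set Metric Module
open scoped ENNReal Topology

noncomputable section

namespace Vale.Agent.Lib.P243

/-- `ℝ² × ℝ` with the Euclidean norm. -/
abbrev Y := WithLp 2 X

/-- Volume and Euclidean norm preserving linear automorphisms. -/
def IsRot (R : X ≃ₗ[ℝ] X) : Prop :=
  (∀ x, nsq (R x) = nsq x) ∧ MeasurePreserving R volume volume

lemma norm_sq_toLp (x : X) : ‖(WithLp.toLp 2 x : Y)‖ ^ 2 = nsq x := by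
  rw [WithLp.prod_norm_sq_eq_of_L2]
  simp [nsq]

lemma finrank_Y : finrank ℝ Y = 3 := by
  rw [(WithLp.linearEquiv 2 ℝ X).finrank_eq, finrank_prod, finrank_euclideanSpace_fin]
  simp

lemma unit_basis {e : Y} (he : ‖e‖ = 1) : ∃ b : OrthonormalBasis (Fin 3) ℝ Y, b 2 = e := by
  have hv : Orthonormal ℝ (({2} : Set (Fin 3)).domRestrict (fun _ => e)) := by
    rw [orthonormal_iff_ite]
    rintro ⟨i, hi⟩ ⟨j, hj⟩
    have hi' : i = 2 := hi
    have hj' : j = 2 := hj
    subst hi' hj'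
    simp [he]
  obtain ⟨b, hb⟩ := hv.exists_orthonormalBasis_extension_of_card_eq (by simp [finrank_Y])
  exact ⟨b, hb 2 rfl⟩

/-- Every vector can be rotated to a vertical one. -/
lemma exists_rot {v : X} (hv : v ≠ 0) :
    ∃ R : X ≃ₗ[ℝ] X, IsRot R ∧ R v = ((0:P), Real.sqrt (nsq v)) := by
  set v' : Y := WithLp.toLp 2 v with hv'
  have hv'0 : v' ≠ 0 := by
    intro h
    apply hv
    have : WithLp.ofLp v' = 0 := by rw [h]; rfl
    simpa [hv'] using this
  have hnpos : 0 < ‖v'‖ := norm_pos_iff.2 hv'0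
  have hunit : ‖(‖v'‖⁻¹ • v')‖ = 1 := norm_smul_inv_norm hv'0
  obtain ⟨b, hb⟩ := unit_basis hunit
  set E0 : Y := WithLp.toLp 2 ((0:P), (1:ℝ)) with hE0
  have hE0n : ‖E0‖ = 1 := by
    have h := norm_sq_toLp ((0:P), (1:ℝ))
    have h2 : nsq ((0:P), (1:ℝ)) = 1 := by simp [nsq]
    rw [h2] at h
    have h3 : ‖E0‖ ^ 2 = 1 := h
    have h4 : 0 ≤ ‖E0‖ := norm_nonneg _
    nlinarith
  obtain ⟨b₀, hb₀⟩ := unit_basis hE0n
  set Q : Y ≃ₗᵢ[ℝ] Y := b.equiv b₀ (Equiv.refl _) with hQ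
  have hQb : Q (‖v'‖⁻¹ • v') = E0 := by
    rw [← hb, hQ, OrthonormalBasis.equiv_apply_basis]
    simpa using hb₀
  have hQv : Q v' = ‖v'‖ • E0 := by
    rw [← hQb, ← map_smul, smul_smul, mul_inv_cancel₀ hnpos.ne', one_smul]
  have hn : ‖v'‖ = Real.sqrt (nsq v) := by
    rw [← norm_sq_toLp v, Real.sqrt_sq (norm_nonneg _)]
  set L := WithLp.linearEquiv 2 ℝ X with hL
  refine ⟨L.symm.trans (Q.toLinearEquiv.trans L), ⟨?_, ?_⟩, ?_⟩
  · intro x
    rw [← norm_sq_toLp, ← norm_sq_toLp]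
    have e : (WithLp.toLp 2 ((L.symm.trans (Q.toLinearEquiv.trans L)) x) : Y) = Q (WithLp.toLp 2 x) :=
      rfl
    rw [e, LinearIsometryEquiv.norm_map]
  · have h1 := WithLp.volume_preserving_toLp P ℝ
    have h2 := WithLp.volume_preserving_ofLp P ℝ
    exact h2.comp (Q.measurePreserving.comp h1)
  · have e : (L.symm.trans (Q.toLinearEquiv.trans L)) v = WithLp.ofLp (Q v') := rfl
    rw [e, hQv, hE0, hn]
    simp

variable {K : Set X}

/-- The image of `K` under a rotation: as a preimage under the inverse. -/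
def rotSet (R : X ≃ₗ[ℝ] X) (K : Set X) : Set X := R '' K

lemma mem_rotSet {R : X ≃ₗ[ℝ] X} {x : X} : x ∈ rotSet R K ↔ R.symm x ∈ K := by
  constructor
  · rintro ⟨k, hk, rfl⟩
    simpa using hk
  · intro h
    exact ⟨_, h, by simp⟩

lemma Nrm.rot (h : Nrm K) {R : X ≃ₗ[ℝ] X} (hR : IsRot R) : Nrm (rotSet R K) := by
  obtain ⟨hc, hK, hin, hout⟩ := h
  have hcont : Continuous R := R.toLinearMap.continuous_of_finiteDimensional
  refine ⟨hc.linear_image R.toLinearMap, hK.image hcont, ?_, ?_⟩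
  · intro v hv
    rw [mem_rotSet]
    apply hin
    have := hR.1 (R.symm v)
    rw [LinearEquiv.apply_symm_apply] at this
    rw [← this]
    exact hv
  · rintro _ ⟨k, hk, rfl⟩
    have := hR.1 k
    show nsq (R k) ≤ _
    rw [this]
    exact hout k hk

lemma rot_volume {R : X ≃ₗ[ℝ] X} (hR : IsRot R) (hK : IsCompact K) :
    volume (rotSet R K) = volume K := by
  have hcont : Continuous R := R.toLinearMap.continuous_of_finiteDimensional
  have hm : MeasurableSet (rotSet R K) := (hK.image hcont).measurableSet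
  have := hR.2.measure_preimage hm.nullMeasurableSet
  rw [← this]
  congr 1
  ext x
  rw [mem_preimage, mem_rotSet]
  simp

end Vale.Agent.Lib.P243
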