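import Vale.Agent.Lib.P243.Band

/-!
Sets of short directions, and the lower bound for their measure at the two ends of a
nearly tight central chord.
-/

open MeasureTheory Set Metric
open scoped ENNReal Topology

noncomputable section

namespace Vale.Agent.Lib.P243

variable {K : Set X}

/-- Squared Euclidean norm on `ℝ² × ℝ`. -/
def nsq (v : X) : ℝ := ‖v.1‖ ^ 2 + v.2 ^ 2

lemma continuous_nsq : Continuous nsq := by
  unfold nsq
  fun_prop

/-- Directions `v` of size at most `ρ` with neither `x + v` nor `x - v` in `K`. -/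
def Sh (K : Set X) (ρ : ℝ) (x : X) : Set X := {v | nsq v ≤ ρ ^ 2 ∧ x + v ∉ K ∧ x - v ∉ K}

lemma measurableSet_Sh (hK : IsCompact K) (ρ : ℝ) (x : X) : MeasurableSet (Sh K ρ x) := by
  have h1 : MeasurableSet {v : X | nsq v ≤ ρ ^ 2} :=
    (isClosed_le continuous_nsq continuous_const).measurableSet
  have h2 : MeasurableSet {v : X | x + v ∈ K} :=
    (hK.isClosed.preimage (by fun_prop : Continuous fun v : X => x + v)).measurableSet
  have h3 : MeasurableSet {v : X | x - v ∈ K} :=
    (hK.isClosed.preimage (by fun_prop : Continuous fun v : X => x - v)).measurableSet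
  exact h1.inter (h2.compl.inter h3.compl)

lemma Sh_shift (ρ : ℝ) (t x : X) : Sh (shiftSet K t) ρ x = Sh K ρ (x + t) := by
  ext v
  simp only [Sh, shiftSet, mem_ofPred_eq]
  have e1 : x + v + t = x + t + v := by abel
  have e2 : x - v + t = x + t - v := by abel
  rw [e1, e2]

/-- Lower bound for the measure of short directions at the two ends of a chord. -/
lemma short_sum (hc : Convex ℝ K) (hK : IsCompact K) (hball : closedBall (0:P) (1/48) ⊆ Dom K)
    (hR : ∀ y ∈ Dom K, ‖y‖ ≤ 9/2)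
    (hZ : ∀ y z y' z', (y, z) ∈ K → (y', z') ∈ K → |z - z'| ≤ 9/2)
    {ℓ : ℝ} (hℓ : 0 < ℓ) (hb : botf K 0 = 0) (ht : topf K 0 = ℓ) {r : ℝ} (hr0 : 0 < r)
    (hr : r ≤ 1/96)
    (hV : volume K < ENNReal.ofReal (ℓ / 3) * volume (Dom K) +
      ENNReal.ofReal (r / 2 * ℓ / 192 * (rad ^ 2 * Real.pi)))
    {τ : ℝ} (hτ0 : 0 ≤ τ) (hτ : τ ≤ r * ℓ / 72) :
    ENNReal.ofReal ((r / 4) ^ 2 * Real.pi * (r * ℓ / 18)) ≤
      volume (Sh K (218 * r) ((0:P), ℓ - τ)) + volume (Sh K (218 * r) ((0:P), τ)) := by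
  have hD0 : Dom K ∈ 𝓝 (0:P) := Filter.mem_of_superset (closedBall_mem_nhds _ (by norm_num)) hball
  have hw00 : (0:P) ∈ Dom K := mem_of_mem_nhds hD0
  have hp0 : ((0:P), (0:ℝ)) ∈ K := by
    have := bot_mem hK hw00
    rwa [hb] at this
  have hpℓ : ((0:P), ℓ) ∈ K := by
    have := top_mem hK hw00
    rwa [ht] at this
  have hℓ2 : ℓ ≤ 9/2 := by
    have := hZ _ _ _ _ hpℓ hp0
    rw [sub_zero] at this
    exact (le_abs_self _).trans this
  have hℓ' : ℓ = chord K 0 := by
    unfold chord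
    rw [ht, hb, sub_zero]
  have hm1 := measurableSet_Sh hK (218 * r) ((0:P), ℓ - τ)
  have hm2 := measurableSet_Sh hK (218 * r) ((0:P), τ)
  rw [Measure.volume_eq_prod, Measure.prod_apply hm1, Measure.prod_apply hm2,
    ← lintegral_add_left (measurable_measure_prodMk_left hm1)]
  -- the disc of horizontal parts
  set w₀ : P := EuclideanSpace.single 0 (3 * r / 4) with hw₀
  have hw₀n : ‖w₀‖ = 3 * r / 4 := by
    rw [hw₀, EuclideanSpace.norm_single, Real.norm_eq_abs, abs_of_pos (by positivity)]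
  set G : Set P := closedBall w₀ (r / 4) with hG
  have hGbd : ∀ w ∈ G, r / 2 ≤ ‖w‖ ∧ ‖w‖ ≤ r := by
    intro w hw
    rw [hG, mem_closedBall, dist_eq_norm] at hw
    constructor
    · have := norm_sub_norm_le w₀ w
      rw [norm_sub_rev] at this
      linarith
    · have := norm_le_norm_add_norm_sub' w w₀
      linarith
  have hGm : volume G = ENNReal.ofReal ((r / 4) ^ 2 * Real.pi) := by
    rw [hG, EuclideanSpace.volume_closedBall_fin_two, ENNReal.ofReal_mul (by positivity),
      ENNReal.ofReal_pow (by positivity)]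
  -- pointwise bound on `G`
  have hpt : ∀ w ∈ G, ENNReal.ofReal (r * ℓ / 18) ≤
      volume (Prod.mk w ⁻¹' Sh K (218 * r) ((0:P), ℓ - τ)) +
      volume (Prod.mk w ⁻¹' Sh K (218 * r) ((0:P), τ)) := by
    intro w hw
    obtain ⟨hw1, hw2⟩ := hGbd w hw
    have hwpos : 0 < ‖w‖ := by linarith
    have hw0 : w ≠ 0 := norm_pos_iff.1 hwpos
    have hw96 : ‖w‖ ≤ 1/96 := hw2.trans hr
    have hτ' : τ ≤ ‖w‖ * ℓ / 36 := by nlinarith
    obtain ⟨b, hbb, hcases⟩ := band hc hK hball hR hZ hℓ hb ht hw0 hw96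
    -- no point exceeds
    have hnoex : ∀ p, (p = w ∨ p = -w) → ¬ Exceeds K ℓ w p := by
      intro p hp hex
      have h1 := exceeds_volume hc hK hball hR hℓ hℓ' hw0 hw96 hp hex
      have h2 : ENNReal.ofReal (r / 2 * ℓ / 192 * (rad ^ 2 * Real.pi)) ≤
          ENNReal.ofReal (‖w‖ * ℓ / 192 * (rad ^ 2 * Real.pi)) := by
        apply ENNReal.ofReal_le_ofReal
        have h3 : r / 2 * ℓ ≤ ‖w‖ * ℓ := mul_le_mul_of_nonneg_right hw1 hℓ.le
        have h4 : 0 ≤ rad ^ 2 * Real.pi := by positivity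
        apply mul_le_mul_of_nonneg_right _ h4
        apply div_le_div_of_nonneg_right h3 (by norm_num)
      have h5 : ENNReal.ofReal (ℓ / 3) * volume (Dom K) +
          ENNReal.ofReal (r / 2 * ℓ / 192 * (rad ^ 2 * Real.pi)) ≤ volume K :=
        le_trans (by gcongr) h1
      exact lt_irrefl _ (lt_of_le_of_lt h5 hV)
    have hnorm : ∀ ξ, |ξ - b| ≤ ‖w‖ * ℓ / 18 → nsq (w, ξ) ≤ (218 * r) ^ 2 := by
      intro ξ hξ
      have h1 : |ξ| ≤ 217 * ‖w‖ := by
        have h2 : |ξ| ≤ |ξ - b| + |b| := by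
          have := abs_add_le (ξ - b) b
          simpa using this
        have h3 : ‖w‖ * ℓ / 18 ≤ ‖w‖ := by nlinarith
        linarith
      have h2 : ξ ^ 2 ≤ (217 * ‖w‖) ^ 2 := by
        rw [← sq_abs ξ]
        exact pow_le_pow_left₀ (abs_nonneg _) h1 2
      unfold nsq
      simp only
      have h3 : ‖w‖ ^ 2 ≤ r ^ 2 := pow_le_pow_left₀ hwpos.le hw2 2
      nlinarith
    set δ := ‖w‖ * ℓ / 18 with hδ
    have hvol : ENNReal.ofReal (r * ℓ / 18) ≤ volume (Icc (b - δ) (b + δ)) := by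
      rw [Real.volume_Icc]
      apply ENNReal.ofReal_le_ofReal
      have : r / 2 * ℓ ≤ ‖w‖ * ℓ := mul_le_mul_of_nonneg_right hw1 hℓ.le
      rw [hδ]
      linarith
    rcases hcases with hL | hR'
    · have hsub : Icc (b - δ) (b + δ) ⊆ Prod.mk w ⁻¹' Sh K (218 * r) ((0:P), ℓ - τ) := by
        intro ξ hξ
        have hξ' : |ξ - b| ≤ δ := by
          rw [abs_le]
          constructor <;> linarith [hξ.1, hξ.2]
        refine ⟨hnorm ξ hξ', ?_, ?_⟩
        · intro hmem
          have hmem' : (w, ℓ - τ + ξ) ∈ K := by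
            simpa [Prod.mk_add_mk] using hmem
          rcases hL τ ξ hτ0 hτ' hξ' (Or.inl hmem') with h | h
          · exact hnoex w (Or.inl rfl) h
          · exact hnoex (-w) (Or.inr rfl) h
        · intro hmem
          have hmem' : (-w, ℓ - τ - ξ) ∈ K := by
            simpa [Prod.mk_sub_mk] using hmem
          rcases hL τ ξ hτ0 hτ' hξ' (Or.inr hmem') with h | h
          · exact hnoex w (Or.inl rfl) h
          · exact hnoex (-w) (Or.inr rfl) h
      exact le_trans hvol (le_trans (measure_mono hsub) le_self_add)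
    · have hsub : Icc (b - δ) (b + δ) ⊆ Prod.mk w ⁻¹' Sh K (218 * r) ((0:P), τ) := by
        intro ξ hξ
        have hξ' : |ξ - b| ≤ δ := by
          rw [abs_le]
          constructor <;> linarith [hξ.1, hξ.2]
        refine ⟨hnorm ξ hξ', ?_, ?_⟩
        · intro hmem
          have hmem' : (w, τ + ξ) ∈ K := by
            simpa [Prod.mk_add_mk] using hmem
          rcases hR' τ ξ hτ0 hτ' hξ' (Or.inl hmem') with h | h
          · exact hnoex w (Or.inl rfl) h
          · exact hnoex (-w) (Or.inr rfl) h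
        · intro hmem
          have hmem' : (-w, τ - ξ) ∈ K := by
            simpa [Prod.mk_sub_mk] using hmem
          rcases hR' τ ξ hτ0 hτ' hξ' (Or.inr hmem') with h | h
          · exact hnoex w (Or.inl rfl) h
          · exact hnoex (-w) (Or.inr rfl) h
      exact le_trans hvol (le_trans (measure_mono hsub) le_add_self)
  -- integrate
  have hGc : MeasurableSet G := measurableSet_closedBall
  calc ENNReal.ofReal ((r / 4) ^ 2 * Real.pi * (r * ℓ / 18))
      = ENNReal.ofReal (r * ℓ / 18) * volume G := by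
        rw [hGm, ← ENNReal.ofReal_mul (by positivity)]
        congr 1
        ring
    _ = ∫⁻ _ in G, ENNReal.ofReal (r * ℓ / 18) := by
        rw [setLIntegral_const]
    _ ≤ ∫⁻ w in G, volume (Prod.mk w ⁻¹' Sh K (218 * r) ((0:P), ℓ - τ)) +
          volume (Prod.mk w ⁻¹' Sh K (218 * r) ((0:P), τ)) :=
        setLIntegral_mono' hGc hpt
    _ ≤ ∫⁻ w, volume (Prod.mk w ⁻¹' Sh K (218 * r) ((0:P), ℓ - τ)) +
          volume (Prod.mk w ⁻¹' Sh K (218 * r) ((0:P), τ)) := setLIntegral_le_lintegral _ _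

end Vale.Agent.Lib.P243
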