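import Vale.Agent.Lib.P243.Layer

/-!
The single point lemma: one point above the tent produces a definite volume excess.
-/

open MeasureTheory Set Metric
open scoped ENNReal Topology

noncomputable section

namespace Vale.Agent.Lib.P243

variable {K : Set X}

lemma exists_support {D : Set P} (hDc : Convex ℝ D) {d₀ : ℝ} (hd₀ : 0 < d₀)
    (hball : closedBall (0:P) d₀ ⊆ D) {q : P} (hq : q ∉ interior D) :
    ∃ n : StrongDual ℝ P, n q = 1 ∧ (∀ y ∈ D, n y ≤ 1) := by
  have h0 : (0:P) ∈ interior D :=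
    mem_interior.2 ⟨ball 0 d₀, ball_subset_closedBall.trans hball, isOpen_ball, mem_ball_self hd₀⟩
  obtain ⟨f, hf⟩ := geometric_hahn_banach_open_point hDc.interior isOpen_interior hq
  have hfq : 0 < f q := by simpa using hf 0 h0
  refine ⟨(f q)⁻¹ • f, ?_, ?_⟩
  · simp [hfq.ne']
  · intro y hy
    have hcl : y ∈ closure (interior D) := by
      rw [hDc.closure_interior_eq_closure_of_nonempty_interior ⟨0, h0⟩]
      exact subset_closure hy
    have hle : f y ≤ f q := by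
      have := closure_minimal (s := interior D) (t := {z | f z ≤ f q})
        (fun z hz => (hf z hz).le) (isClosed_le f.continuous continuous_const)
      exact this hcl
    have : ((f q)⁻¹ • f) y = (f q)⁻¹ * f y := by simp
    rw [this, inv_mul_le_iff₀ hfq, mul_one]
    exact hle

lemma support_le_norm {D : Set P} {d₀ : ℝ} (hd₀ : 0 < d₀)
    (hball : closedBall (0:P) d₀ ⊆ D) {n : StrongDual ℝ P} (hn : ∀ y ∈ D, n y ≤ 1) (z : P) :
    n z ≤ ‖z‖ / d₀ := by
  by_cases hz : z = 0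
  · simp [hz]
  have hnz : 0 < ‖z‖ := norm_pos_iff.2 hz
  have h1 : (d₀ / ‖z‖) • z ∈ D := by
    apply hball
    rw [mem_closedBall_zero_iff, norm_smul, Real.norm_eq_abs, abs_of_pos (div_pos hd₀ hnz)]
    rw [div_mul_cancel₀ _ hnz.ne']
  have h2 := hn _ h1
  rw [map_smul, smul_eq_mul] at h2
  rw [le_div_iff₀ hd₀]
  have : d₀ / ‖z‖ * n z * ‖z‖ ≤ 1 * ‖z‖ := mul_le_mul_of_nonneg_right h2 hnz.le
  have e : d₀ / ‖z‖ * n z * ‖z‖ = n z * d₀ := by
    field_simp
  linarith

lemma support_le_gauge {D : Set P} (hDc : Convex ℝ D) (hDcl : IsClosed D) (hD0 : D ∈ 𝓝 (0:P))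
    (hDb : Bornology.IsBounded D) {n : StrongDual ℝ P} (hn : ∀ y ∈ D, n y ≤ 1) (z : P) :
    n z ≤ gauge D z := by
  by_cases hz : z = 0
  · simp [hz, gauge_zero]
  have hpos := gauge_pos' hD0 hDb hz
  have h1 := hn _ (rim_mem hDc hDcl hD0 hDb hz).1
  rw [map_smul, smul_eq_mul, inv_mul_le_iff₀ hpos, mul_one] at h1
  exact h1

/-- The radius of the disc produced by the single point lemma. -/
def rad : ℝ := 1 / 200000000

lemma rad_pos : 0 < rad := by norm_num [rad]

lemma exit_point {D : Set P} (hDc : Convex ℝ D) (hDcl : IsClosed D)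
    (hball : closedBall (0:P) (1/48) ⊆ D) (hR : ∀ y ∈ D, ‖y‖ ≤ 9/2) {p : P} (hp0 : p ≠ 0)
    (hp : ‖p‖ ≤ 1/96) :
    ∃ y₀ : P, ∀ y ∈ closedBall y₀ rad, ∃ (q : P) (ω : ℝ), q ∈ D ∧ q ∉ interior D ∧
      3/8 ≤ ω ∧ ω ≤ 5/8 ∧ y = (1 - ω) • p + ω • q ∧ ‖q - (gauge D p)⁻¹ • p‖ ≤ 1/165888 := by
  have hD0 : D ∈ 𝓝 (0:P) := Filter.mem_of_superset (closedBall_mem_nhds _ (by norm_num)) hball
  have hDb : Bornology.IsBounded D :=
    (isBounded_closedBall (x := (0:P)) (r := 9/2)).subset fun y hy => by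
      rw [mem_closedBall_zero_iff]; exact hR y hy
  obtain ⟨hg₁, hg₁1⟩ := rim_mem hDc hDcl hD0 hDb hp0
  set g₁ := (gauge D p)⁻¹ • p with hg₁def
  -- translated set
  set Dp : Set P := (fun w => p + w) ⁻¹' D with hDp
  have hDpc : Convex ℝ Dp := by
    have := hDc.affine_preimage (AffineMap.const ℝ P p + AffineMap.id ℝ P)
    exact this
  have hballp : closedBall (0:P) (1/96) ⊆ Dp := by
    intro w hw
    rw [mem_closedBall_zero_iff] at hw
    apply hball
    rw [mem_closedBall_zero_iff]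
    calc ‖p + w‖ ≤ ‖p‖ + ‖w‖ := norm_add_le _ _
      _ ≤ 1/96 + 1/96 := add_le_add hp hw
      _ = 1/48 := by norm_num
  have hDp0 : Dp ∈ 𝓝 (0:P) := Filter.mem_of_superset (closedBall_mem_nhds _ (by norm_num)) hballp
  have hDpcl : IsClosed Dp := hDcl.preimage (by fun_prop)
  have habs : Absorbent ℝ Dp := absorbent_nhds_zero hDp0
  have hint : ∀ w, w ∈ interior Dp ↔ p + w ∈ interior D := by
    intro w
    have := (Homeomorph.addLeft p).preimage_interior D
    have h2 : w ∈ (Homeomorph.addLeft p) ⁻¹' interior D ↔ w ∈ interior ((Homeomorph.addLeft p) ⁻¹' D) := by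
      rw [this]
    exact h2.symm
  have hge : ∀ w, p + w ∉ interior D → 1 ≤ gauge Dp w := by
    intro w hw
    by_contra hlt
    have hlt := not_le.1 hlt
    have : w ∈ interior Dp := (gauge_lt_one_iff_mem_interior hDpc hDp0).1 hlt
    exact hw ((hint w).1 this)
  have hle : ∀ w, p + w ∈ D → gauge Dp w ≤ 1 := fun w hw =>
    gauge_le_one_of_mem hw
  have hnormg : ∀ z : P, gauge Dp z ≤ 96 * ‖z‖ := by
    intro z
    have := mul_gauge_le_norm (s := Dp) (r := 1/96) (x := z)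
      (ball_subset_closedBall.trans hballp)
    linarith
  set w₁ := g₁ - p with hw₁
  have hw₁1 : gauge Dp w₁ = 1 := by
    apply le_antisymm
    · apply hle
      simpa [hw₁] using hg₁
    · apply hge
      have : p + w₁ = g₁ := by simp [hw₁]
      rw [this]
      intro hi
      have := (gauge_lt_one_iff_mem_interior hDc hD0).2 hi
      linarith
  set w₀ := (1/2 : ℝ) • w₁ with hw₀
  have hw₀g : gauge Dp w₀ = 1/2 := by
    rw [hw₀, gauge_smul' (by norm_num), hw₁1]
    norm_num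
  have hw₀n : ‖w₀‖ ≤ 113/50 := by
    have h1 := hR _ hg₁
    have h2 : ‖w₁‖ ≤ ‖g₁‖ + ‖p‖ := norm_sub_le _ _
    rw [hw₀, norm_smul]
    norm_num
    linarith
  refine ⟨p + w₀, ?_⟩
  intro y hy
  rw [mem_closedBall] at hy
  set w := y - p with hw
  set e := w - w₀ with he
  have hen : ‖e‖ ≤ rad := by
    have : e = y - (p + w₀) := by
      simp only [he, hw]
      abel
    rw [this, ← dist_eq_norm]
    exact hy
  have hrad : rad = 1 / 200000000 := rfl
  have hw_eq : w = w₀ + e := by simp [he]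
  have hup : gauge Dp w ≤ 1/2 + 96 * ‖e‖ := by
    rw [hw_eq]
    have := gauge_add_le hDpc habs w₀ e
    linarith [hnormg e]
  have hlo : 1/2 - 96 * ‖e‖ ≤ gauge Dp w := by
    have h1 : w₀ = w + (-e) := by rw [hw_eq]; abel
    have h2 := gauge_add_le hDpc habs w (-e)
    rw [← h1, hw₀g] at h2
    have h3 := hnormg (-e)
    rw [norm_neg] at h3
    linarith
  set ω := gauge Dp w with hω
  have hω1 : 3/8 ≤ ω := by
    rw [hrad] at hen
    linarith
  have hω2 : ω ≤ 5/8 := by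
    rw [hrad] at hen
    linarith
  have hωpos : 0 < ω := by linarith
  have hg1 : gauge Dp (ω⁻¹ • w) = 1 := by
    rw [gauge_smul' (inv_nonneg.2 hωpos.le), ← hω, inv_mul_cancel₀ hωpos.ne']
  refine ⟨p + ω⁻¹ • w, ω, ?_, ?_, hω1, hω2, ?_, ?_⟩
  · have : ω⁻¹ • w ∈ Dp := (gauge_le_one_iff hDpc hDpcl hDp0).1 hg1.le
    exact this
  · intro hi
    have := (gauge_lt_one_iff_mem_interior hDpc hDp0).2 ((hint _).2 hi)
    linarith
  · rw [smul_add, smul_smul, mul_inv_cancel₀ hωpos.ne', one_smul, sub_smul, one_smul]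
    rw [hw]
    abel
  · have e1 : p + ω⁻¹ • w - g₁ = ω⁻¹ • e + (ω⁻¹ - 2) • w₀ := by
      have h2 : g₁ = p + (2:ℝ) • w₀ := by
        rw [hw₀, smul_smul]
        norm_num [hw₁]
      rw [h2, hw_eq, smul_add, sub_smul]
      abel
    rw [e1]
    have hinv1 : ω⁻¹ ≤ 8/3 := by
      rw [inv_le_comm₀ hωpos (by norm_num)]
      norm_num
      linarith
    have hinv0 : 0 ≤ ω⁻¹ := inv_nonneg.2 hωpos.le
    have hinv2 : |ω⁻¹ - 2| ≤ 512 * ‖e‖ := by
      have h1 : ω⁻¹ - 2 = ω⁻¹ * (1 - 2 * ω) := by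
        field_simp
      rw [h1, abs_mul, abs_of_nonneg hinv0]
      have h2 : |1 - 2 * ω| ≤ 192 * ‖e‖ := by
        rw [abs_le]
        constructor <;> linarith
      calc ω⁻¹ * |1 - 2 * ω| ≤ 8/3 * (192 * ‖e‖) := by
            apply mul_le_mul hinv1 h2 (abs_nonneg _) (by norm_num)
        _ = 512 * ‖e‖ := by ring
    calc ‖ω⁻¹ • e + (ω⁻¹ - 2) • w₀‖ ≤ ‖ω⁻¹ • e‖ + ‖(ω⁻¹ - 2) • w₀‖ := norm_add_le _ _
      _ = ω⁻¹ * ‖e‖ + |ω⁻¹ - 2| * ‖w₀‖ := by
          rw [norm_smul, norm_smul, Real.norm_eq_abs, Real.norm_eq_abs, abs_of_nonneg hinv0]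
      _ ≤ 8/3 * ‖e‖ + 512 * ‖e‖ * (113/50) := by
          apply add_le_add
          · exact mul_le_mul_of_nonneg_right hinv1 (norm_nonneg _)
          · exact mul_le_mul hinv2 hw₀n (norm_nonneg _) (by positivity)
      _ ≤ 1/165888 := by
          rw [hrad] at hen
          have := norm_nonneg e
          nlinarith

/-- The single point lemma. -/
lemma spl (hc : Convex ℝ K) (hK : IsCompact K) (hball : closedBall (0:P) (1/48) ⊆ Dom K)
    (hR : ∀ y ∈ Dom K, ‖y‖ ≤ 9/2) {ℓ : ℝ} (hℓpos : 0 < ℓ) {p : P}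
    (hp0 : p ≠ 0) (hp : ‖p‖ ≤ 1/96) {m : ℝ} (hm : ‖p‖ * ℓ / 36 ≤ m)
    (hf : ℓ * (1 - gauge (Dom K) p) + m ≤ chord K p) :
    ∃ y₀ : P, ∀ y ∈ closedBall y₀ rad, tentf K ℓ y + 3 * m / 16 ≤ chord K y := by
  have hDc := dom_convex hc
  have hDcl := (dom_compact hK).isClosed
  have hDb := (dom_compact hK).isBounded
  have hD0 : Dom K ∈ 𝓝 (0:P) := Filter.mem_of_superset (closedBall_mem_nhds _ (by norm_num)) hball
  obtain ⟨y₀, hy₀⟩ := exit_point hDc hDcl hball hR hp0 hp
  refine ⟨y₀, fun y hy => ?_⟩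
  obtain ⟨q, ω, hqD, hqi, hω1, hω2, hyeq, hqg⟩ := hy₀ y hy
  obtain ⟨n, hnq, hn⟩ := exists_support hDc (by norm_num : (0:ℝ) < 1/48) hball hqi
  have hpD : p ∈ Dom K := hball (by
    rw [mem_closedBall_zero_iff]
    linarith)
  have hpos := gauge_pos' hD0 hDb hp0
  set a := gauge (Dom K) p with ha
  have ha_le : a ≤ 48 * ‖p‖ := by
    have := mul_gauge_le_norm (s := Dom K) (r := 1/48) (x := p)
      (ball_subset_closedBall.trans hball)
    linarith
  -- concavity of the chord along `p, q`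
  have hconc := chord_concave hc hK hpD hqD (by linarith : 0 ≤ 1 - ω) (by linarith : 0 ≤ ω)
    (by ring)
  rw [← hyeq] at hconc
  have hqnn := chord_nonneg hK hqD
  -- upper bound for the tent at `y`
  have hny : n y = (1 - ω) * n p + ω := by
    rw [hyeq, map_add, map_smul, map_smul, hnq]
    simp
  have hgy := support_le_gauge hDc hDcl hD0 hDb hn y
  have hnp1 := hn p hpD
  have htent : tentf K ℓ y ≤ ℓ * ((1 - ω) * (1 - n p)) := by
    unfold tentf
    apply mul_le_mul_of_nonneg_left _ hℓpos.le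
    apply max_le
    · rw [hny] at hgy
      nlinarith
    · apply mul_nonneg <;> linarith
  -- the defect of the support functional at `p`
  have hnp : n p = a * n ((gauge (Dom K) p)⁻¹ • p) := by
    rw [map_smul, smul_eq_mul, ← ha, ← mul_assoc, mul_inv_cancel₀ hpos.ne', one_mul]
  set g₁ := (gauge (Dom K) p)⁻¹ • p with hg₁
  have hdefect : 1 - n g₁ ≤ 48 / 165888 := by
    have h1 := support_le_norm (by norm_num : (0:ℝ) < 1/48) hball hn (q - g₁)
    rw [map_sub, hnq] at h1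
    have h2 : ‖q - g₁‖ / (1/48) ≤ (1/165888) / (1/48) :=
      div_le_div_of_nonneg_right hqg (by norm_num)
    have h3 : ((1:ℝ)/165888) / (1/48) = 48 / 165888 := by norm_num
    linarith
  have hdefect2 : ℓ * (a - n p) ≤ m / 2 := by
    have h1 : a - n p = a * (1 - n g₁) := by rw [hnp]; ring
    have h2 : a * (1 - n g₁) ≤ 48 * ‖p‖ * (48 / 165888) := by
      apply mul_le_mul ha_le hdefect _ (by positivity)
      have := hn g₁ (rim_mem hDc hDcl hD0 hDb hp0).1
      linarith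
    have h3 : ℓ * (a - n p) ≤ ℓ * (48 * ‖p‖ * (48 / 165888)) := by
      apply mul_le_mul_of_nonneg_left _ hℓpos.le
      rw [h1]
      exact h2
    have h4 : ℓ * (48 * ‖p‖ * (48 / 165888)) = ‖p‖ * ℓ / 72 := by ring
    linarith
  have hm0 : 0 ≤ m := le_trans (by positivity) hm
  -- assemble
  have hfinal : (3/8) * (m / 2) ≤ (1 - ω) * (chord K p - ℓ * (1 - n p)) := by
    have h1 : m / 2 ≤ chord K p - ℓ * (1 - n p) := by nlinarith
    have h2 : (3/8 : ℝ) ≤ 1 - ω := by linarith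
    exact mul_le_mul h2 h1 (by positivity) (by linarith)
  nlinarith

end Vale.Agent.Lib.P243
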