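import Vale.Agent.Lib.P243.Mass

/-!
The main estimate with explicit constants, and its invariance under rotations.
-/

open MeasureTheory Set Metric Module
open scoped ENNReal Topology

noncomputable section

namespace Vale.Agent.Lib.P243

variable {K : Set X}

/-- The size parameter of the short directions. -/
def rr : ℝ := 2 / 10 ^ 28

/-- The relative depth of the shell weight. -/
def ee : ℝ := 35 / 10 ^ 49

/-- The final constant in the line estimate. -/
def CC : ℝ := 1 / (1 / 3 + 1 / 10 ^ 49)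

lemma rr_pos : 0 < rr := by norm_num [rr]

lemma ee_pos : 0 < ee := by norm_num [ee]

lemma ee_le : ee ≤ 1 := by norm_num [ee]

lemma CC_pos : 0 < CC := by norm_num [CC]

lemma par_rr_ee : Par rr ee := by
  refine ⟨rr_pos, by norm_num [rr], ee_pos, by norm_num [ee], ?_⟩
  have hpi : (3:ℝ) < Real.pi := Real.pi_gt_three
  have h1 : rad ^ 2 = 1 / 200000000 ^ 2 := by
    unfold rad
    norm_num
  rw [h1]
  unfold rr ee
  nlinarith

/-- Invariance of the weight under rotations. -/
lemma wt_rot {R : X ≃ₗ[ℝ] X} (hR : IsRot R) (hK : IsCompact K) (r η : ℝ) (x : X) :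
    wt (rotSet R K) r η (R x) = wt K r η x := by
  have hcont : Continuous R := R.toLinearMap.continuous_of_finiteDimensional
  have hK' : IsCompact (rotSet R K) := hK.image hcont
  have m1 : ∀ w, w ∈ rotSet R K ↔ R.symm w ∈ K := fun w => mem_rotSet
  have h1 : R x ∈ rotSet R K ↔ x ∈ K := by
    rw [m1, LinearEquiv.symm_apply_apply]
  have h2 : R x ∈ Inner (rotSet R K) ↔ x ∈ Inner K := by
    show (6/5 : ℝ) • R x ∈ rotSet R K ↔ (6/5 : ℝ) • x ∈ K
    rw [m1, map_smul, LinearEquiv.symm_apply_apply]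
  have h3 : defReal (rotSet R K) r (R x) = defReal K r x := by
    unfold defReal
    congr 2
    have hm := measurableSet_Sh hK' (218 * r) (R x)
    rw [← hR.2.measure_preimage hm.nullMeasurableSet]
    congr 1
    ext v
    simp only [mem_preimage, Sh, mem_ofPred_eq, hR.1 v, m1]
    have e1 : R.symm (R x + R v) = x + v := by
      rw [← map_add, LinearEquiv.symm_apply_apply]
    have e2 : R.symm (R x - R v) = x - v := by
      rw [← map_sub, LinearEquiv.symm_apply_apply]
    rw [e1, e2]
  unfold wt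
  by_cases hx : x ∈ K
  · by_cases hi : x ∈ Inner K
    · simp [hx, hi, h1, h2, h3]
    · simp [hx, hi, h1, h2, h3]
  · simp [hx, h1]

lemma wt_integral_le (hK : IsCompact K) {r η : ℝ} (hr : 0 < r) (hη : 0 ≤ η) (hη1 : η ≤ 1) :
    ∫⁻ x, ENNReal.ofReal (wt K r η x) ≤ volume K := by
  calc ∫⁻ x, ENNReal.ofReal (wt K r η x)
      ≤ ∫⁻ x, K.indicator (fun _ => (1 : ℝ≥0∞)) x := by
        refine lintegral_mono fun x => ?_
        by_cases hx : x ∈ K
        · rw [indicator_of_mem hx, ← ENNReal.ofReal_one]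
          exact ENNReal.ofReal_le_ofReal (wt_le_one hr hη hη1 x)
        · rw [wt_of_not_mem hx]
          simp
    _ = volume K := by
        rw [lintegral_indicator hK.measurableSet, setLIntegral_const, one_mul]

/-- The main line estimate: the weight integrates along every vertical line to at most
`CC` times its total mass divided by the area of the projection. -/
theorem star (h : Nrm K) (y : P) :
    (∫⁻ z, ENNReal.ofReal (wt K rr ee (y, z))) * volume (Dom K) ≤
      ENNReal.ofReal CC * ∫⁻ x, ENNReal.ofReal (wt K rr ee x) := by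
  have hK := h.2.1
  have hVtop : volume K ≠ ⊤ := hK.measure_lt_top.ne
  refine (line_bound h par_rr_ee y).trans ?_
  have hm := mass_lower h rr_pos ee_pos.le ee_le
  have hWle := wt_integral_le hK rr_pos ee_pos.le ee_le
  set W := ∫⁻ x, ENNReal.ofReal (wt K rr ee x) with hW
  have hWtop : W ≠ ⊤ := ne_top_of_le_ne_top hVtop hWle
  set Vr := (volume K).toReal with hVr
  set Wr := W.toReal with hWr
  have hVr0 : 0 ≤ Vr := ENNReal.toReal_nonneg
  have hVe : volume K = ENNReal.ofReal Vr := (ENNReal.ofReal_toReal hVtop).symm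
  have hWe : W = ENNReal.ofReal Wr := (ENNReal.ofReal_toReal hWtop).symm
  have hWr0 : 0 ≤ Wr := ENNReal.toReal_nonneg
  have hγ : 0 ≤ 384 * (218 * rr) ^ 2 := by positivity
  have hη2 : 0 ≤ ee / 2 := by
    have := ee_pos
    positivity
  rw [hVe, hWe, ← ENNReal.ofReal_mul hγ, ← ENNReal.ofReal_mul hη2,
    ← ENNReal.ofReal_add hWr0 (by positivity),
    ← ENNReal.ofReal_add (by positivity) (by positivity)] at hm
  have hm' := (ENNReal.ofReal_le_ofReal_iff (by positivity)).1 hm
  rw [hVe, hWe, ← ENNReal.ofReal_mul (by norm_num [ee]),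
    ← ENNReal.ofReal_mul CC_pos.le]
  apply ENNReal.ofReal_le_ofReal
  -- numerical part
  have hnum : 3 * (1 - ee) ≤ CC * (1 - 384 * (218 * rr) ^ 2 - ee / 2) := by
    norm_num [ee, rr, CC]
  have hWrl : (1 - 384 * (218 * rr) ^ 2 - ee / 2) * Vr ≤ Wr := by
    linarith
  calc 3 * (1 - ee) * Vr ≤ CC * (1 - 384 * (218 * rr) ^ 2 - ee / 2) * Vr :=
        mul_le_mul_of_nonneg_right hnum hVr0
    _ = CC * ((1 - 384 * (218 * rr) ^ 2 - ee / 2) * Vr) := by ring
    _ ≤ CC * Wr := mul_le_mul_of_nonneg_left hWrl CC_pos.le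

/-- The total mass of the weight is positive. -/
lemma wt_integral_ne_zero (h : Nrm K) : ∫⁻ x, ENNReal.ofReal (wt K rr ee x) ≠ 0 := by
  intro h0
  have hm := mass_lower h rr_pos ee_pos.le ee_le
  rw [h0, zero_add, ← add_mul] at hm
  have hV0 := h.vol_pos
  have hVtop : volume K ≠ ⊤ := h.2.1.measure_lt_top.ne
  have hlt : ENNReal.ofReal (384 * (218 * rr) ^ 2) + ENNReal.ofReal (ee / 2) < 1 := by
    rw [← ENNReal.ofReal_add (by positivity) (by norm_num [ee]), ← ENNReal.ofReal_one]
    apply (ENNReal.ofReal_lt_ofReal_iff (by norm_num)).2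
    norm_num [ee, rr]
  have h2 : (ENNReal.ofReal (384 * (218 * rr) ^ 2) + ENNReal.ofReal (ee / 2)) * volume K <
      1 * volume K := by
    exact (ENNReal.mul_lt_mul_iff_left hV0 hVtop).2 hlt
  rw [one_mul] at h2
  exact absurd hm (not_le.2 h2)

end Vale.Agent.Lib.P243
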