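import Vale.Agent.Lib.P243.Star

/-!
Transfer of the line estimate under linear automorphisms: only vertical lines and
scale factors matter, so the estimate holds for every affine image of a normal body.
-/

open MeasureTheory Set Metric Module
open scoped ENNReal Topology

noncomputable section

namespace Vale.Agent.Lib.P243

lemma nsq_pos_of_ne {v : X} (hv : v ≠ 0) : 0 < nsq v := by
  have h1 : (WithLp.toLp 2 v : Y) ≠ 0 := by
    intro h2
    apply hv
    have : WithLp.ofLp (WithLp.toLp 2 v : Y) = 0 := by rw [h2]; rfl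
    simpa using this
  rw [← norm_sq_toLp]
  have := norm_pos_iff.2 h1
  positivity

/-- Change of variables for affine maps of the line. -/
lemma lintegral_line_scale {F : ℝ → ℝ≥0∞} (hF : Measurable F) {s : ℝ} (hs : 0 < s) (b : ℝ) :
    ∫⁻ t, F (t * s + b) = ENNReal.ofReal s⁻¹ * ∫⁻ z, F z := by
  have h1 : ∫⁻ z, F (z + b) = ∫⁻ z, F z := lintegral_add_right_eq_self F b
  have hG : Measurable fun z => F (z + b) := hF.comp (by fun_prop)
  have h2 : ∫⁻ t, F (t * s + b) = ∫⁻ z, F (z + b) ∂(Measure.map (fun t => t * s) volume) := by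
    rw [lintegral_map hG (by fun_prop)]
  rw [h2, Real.map_volume_mul_right hs.ne', lintegral_smul_measure, h1, abs_of_pos (inv_pos.2 hs)]
  rfl

/-- The transfer lemma. -/
lemma transfer {KN : Set X} (h : Nrm KN) (A : X ≃ₗ[ℝ] X) (q : X) :
    (∀ y : P, (∫⁻ t, ENNReal.ofReal (wt KN rr ee (A (y, t) - q))) *
        volume (Dom {x | A x - q ∈ KN}) ≤
        ENNReal.ofReal CC * ∫⁻ x, ENNReal.ofReal (wt KN rr ee (A x - q))) ∧
    ∫⁻ x, ENNReal.ofReal (wt KN rr ee (A x - q)) ≠ 0 ∧
    volume (Dom {x | A x - q ∈ KN}) ≠ 0 ∧ volume (Dom {x | A x - q ∈ KN}) ≠ ⊤ := by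
  have hKN := h.2.1
  set e₃ : X := ((0:P), (1:ℝ)) with he₃
  have he₃0 : e₃ ≠ 0 := by
    intro h0
    have : (e₃).2 = 0 := by rw [h0]; rfl
    simp [he₃] at this
  set a := A e₃ with ha
  have ha0 : a ≠ 0 := by
    intro h0
    exact he₃0 (A.map_eq_zero_iff.1 h0)
  obtain ⟨R, hR, hRa⟩ := exists_rot ha0
  set s := Real.sqrt (nsq a) with hs
  have hspos : 0 < s := Real.sqrt_pos.2 (nsq_pos_of_ne ha0)
  set K' := rotSet R KN with hK'
  have hn' : Nrm K' := h.rot hR
  have hK'c := hn'.2.1
  set G : X ≃ₗ[ℝ] X := A.trans R with hG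
  have hGe : G e₃ = ((0:P), s) := hRa
  -- the horizontal and vertical parts of `G`
  set S : P →ₗ[ℝ] P := (LinearMap.fst ℝ P ℝ) ∘ₗ G.toLinearMap ∘ₗ (LinearMap.inl ℝ P ℝ) with hS
  set ψ : P →ₗ[ℝ] ℝ := (LinearMap.snd ℝ P ℝ) ∘ₗ G.toLinearMap ∘ₗ (LinearMap.inl ℝ P ℝ) with hψ
  have hG0 : ∀ y : P, G (y, 0) = (S y, ψ y) := fun y => rfl
  have hGf : ∀ (y : P) (t : ℝ), G (y, t) = (S y, t * s + ψ y) := by
    intro y t
    have e : ((y, t) : X) = (y, 0) + t • e₃ := by
      simp [he₃]
    rw [e, map_add, map_smul, hGe, hG0]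
    simp [add_comm]
  have hSinj : Function.Injective S := by
    rw [injective_iff_map_eq_zero]
    intro y hy
    have h1 : G (y, 0) = G ((ψ y / s) • e₃) := by
      rw [hG0, map_smul, hGe, hy]
      simp only [Prod.smul_mk, smul_zero, smul_eq_mul]
      congr 1
      field_simp
    have h2 := G.injective h1
    have h3 : y = ((ψ y / s) • e₃).1 := congrArg Prod.fst h2
    simpa [he₃] using h3
  set S' : P ≃ₗ[ℝ] P := LinearEquiv.ofInjectiveEndo S hSinj with hS'
  have hdet : LinearMap.det S ≠ 0 := by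
    have : IsUnit (LinearMap.det (S' : P →ₗ[ℝ] P)) := LinearEquiv.isUnit_det' S'
    exact this.ne_zero
  set c : ℝ≥0∞ := ENNReal.ofReal |(LinearMap.det S)⁻¹| with hc
  have hc0 : c ≠ 0 := by
    rw [hc]
    exact (ENNReal.ofReal_pos.2 (abs_pos.2 (inv_ne_zero hdet))).ne'
  have hctop : c ≠ ⊤ := ENNReal.ofReal_ne_top
  set q₁ := (R q).1 with hq₁
  set q₂ := (R q).2 with hq₂
  set T : P → P := fun y => S y - q₁ with hT
  -- the weight in the new coordinates
  have hW : ∀ (y : P) (t : ℝ), wt KN rr ee (A (y, t) - q) =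
      wt K' rr ee (T y, t * s + (ψ y - q₂)) := by
    intro y t
    rw [← wt_rot hR hKN, map_sub]
    have e1 : R (A (y, t)) = G (y, t) := rfl
    rw [e1, hGf]
    congr 1
    have e2 : R q = (q₁, q₂) := rfl
    rw [e2]
    simp only [Prod.mk_sub_mk, hT]
    congr 1
    ring
  set I : P → ℝ≥0∞ := fun y' => ∫⁻ z, ENNReal.ofReal (wt K' rr ee (y', z)) with hI
  have hwm : Measurable fun p : X => ENNReal.ofReal (wt K' rr ee p) :=
    ENNReal.measurable_ofReal.comp (measurable_wt hK'c rr ee)
  have hIm : Measurable I := Measurable.lintegral_prod_right' hwm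
  have hline : ∀ y : P, ∫⁻ t, ENNReal.ofReal (wt KN rr ee (A (y, t) - q)) =
      ENNReal.ofReal s⁻¹ * I (T y) := by
    intro y
    simp_rw [hW]
    have hF : Measurable fun z => ENNReal.ofReal (wt K' rr ee (T y, z)) :=
      hwm.comp (by fun_prop)
    exact lintegral_line_scale hF hspos _
  -- change of variables in the plane
  have hchange : ∀ f : P → ℝ≥0∞, Measurable f → ∫⁻ y, f (T y) = c * ∫⁻ y', f y' := by
    intro f hf
    have hg : Measurable fun y' => f (y' - q₁) := hf.comp (by fun_prop)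
    have hSm : Measurable S := S.continuous_of_finiteDimensional.measurable
    have h1 : ∫⁻ y, f (T y) = ∫⁻ y', f (y' - q₁) ∂(Measure.map S volume) := by
      rw [lintegral_map hg hSm]
    rw [h1, Measure.map_linearMap_addHaar_eq_smul_addHaar volume hdet, lintegral_smul_measure]
    have h2 : ∫⁻ y', f (y' - q₁) = ∫⁻ y', f y' := lintegral_sub_right_eq_self f q₁
    rw [h2]
    rfl
  -- the projection
  have hDom : Dom {x | A x - q ∈ KN} = T ⁻¹' Dom K' := by
    ext y
    constructor
    · intro hy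
      obtain ⟨t, ht⟩ := mem_dom.1 hy
      have h1 : A (y, t) - q ∈ KN := ht
      refine mem_dom.2 ⟨t * s + (ψ y - q₂), ?_⟩
      rw [mem_rotSet]
      have e1 : ((T y, t * s + (ψ y - q₂)) : X) = R (A (y, t) - q) := by
        rw [map_sub]
        have e2 : R (A (y, t)) = G (y, t) := rfl
        rw [e2, hGf]
        have e3 : R q = (q₁, q₂) := rfl
        rw [e3]
        simp only [Prod.mk_sub_mk, hT]
        congr 1
        ring
      rw [e1, LinearEquiv.symm_apply_apply]
      exact h1
    · intro hy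
      obtain ⟨z, hz⟩ := mem_dom.1 hy
      rw [mem_rotSet] at hz
      set t := (z - (ψ y - q₂)) / s with ht
      refine mem_dom.2 ⟨t, ?_⟩
      show A (y, t) - q ∈ KN
      have e1 : ((T y, z) : X) = R (A (y, t) - q) := by
        rw [map_sub]
        have e2 : R (A (y, t)) = G (y, t) := rfl
        rw [e2, hGf]
        have e3 : R q = (q₁, q₂) := rfl
        rw [e3]
        simp only [Prod.mk_sub_mk, hT]
        congr 1
        rw [ht]
        field_simp
        ring
      rw [e1, LinearEquiv.symm_apply_apply] at hz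
      exact hz
  have hDomv : volume (T ⁻¹' Dom K') = c * volume (Dom K') := by
    have e : T ⁻¹' Dom K' = S ⁻¹' ((fun y' => y' + -q₁) ⁻¹' Dom K') := by
      ext y
      simp [hT, sub_eq_add_neg]
    rw [e, Measure.addHaar_preimage_linearMap volume hdet, measure_preimage_add_right]
  -- the total mass
  have htot : ∫⁻ x, ENNReal.ofReal (wt KN rr ee (A x - q)) =
      ENNReal.ofReal s⁻¹ * (c * ∫⁻ x, ENNReal.ofReal (wt K' rr ee x)) := by
    have hm1 : Measurable fun x : X => ENNReal.ofReal (wt KN rr ee (A x - q)) := by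
      apply ENNReal.measurable_ofReal.comp
      apply (measurable_wt hKN rr ee).comp
      have : Continuous A := A.toLinearMap.continuous_of_finiteDimensional
      exact (this.sub continuous_const).measurable
    rw [lintegral_split hm1]
    simp_rw [hline]
    have hTc : Continuous T := (S.continuous_of_finiteDimensional).sub continuous_const
    have hTm : Measurable fun y => I (T y) := hIm.comp hTc.measurable
    rw [lintegral_const_mul _ hTm, hchange I hIm, lintegral_split hwm]
  refine ⟨?_, ?_, ?_, ?_⟩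
  · intro y
    rw [hline, hDom, hDomv, htot]
    have hstar := star hn' (T y)
    calc ENNReal.ofReal s⁻¹ * I (T y) * (c * volume (Dom K'))
        = ENNReal.ofReal s⁻¹ * c * (I (T y) * volume (Dom K')) := by ring
      _ ≤ ENNReal.ofReal s⁻¹ * c * (ENNReal.ofReal CC * ∫⁻ x, ENNReal.ofReal (wt K' rr ee x)) := by
          gcongr
      _ = _ := by ring
  · rw [htot]
    have h1 := wt_integral_ne_zero hn'
    have h2 : ENNReal.ofReal s⁻¹ ≠ 0 := (ENNReal.ofReal_pos.2 (inv_pos.2 hspos)).ne'
    exact mul_ne_zero h2 (mul_ne_zero hc0 h1)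
  · rw [hDom, hDomv]
    exact mul_ne_zero hc0 hn'.area_pos
  · rw [hDom, hDomv]
    exact ENNReal.mul_ne_top hctop (ne_top_of_le_ne_top ENNReal.ofReal_ne_top hn'.area_le)

end Vale.Agent.Lib.P243
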