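import Vale.Agent.Lib.P243.Short

/-!
The weight function and its integral over vertical lines.
-/

open MeasureTheory Set Metric
open scoped ENNReal Topology

noncomputable section

namespace Vale.Agent.Lib.P243

open Classical in
/-- Normal position: `K` contains the ball of radius `1/8` about the origin and lies in the
ball of radius `9/4`. -/
def Nrm (K : Set X) : Prop :=
  Convex ℝ K ∧ IsCompact K ∧ (∀ v : X, nsq v ≤ (1/8) ^ 2 → v ∈ K) ∧ (∀ v ∈ K, nsq v ≤ (9/4) ^ 2)

variable {K : Set X}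

lemma Nrm.dom_ball (h : Nrm K) : closedBall (0:P) (1/8) ⊆ Dom K := by
  intro y hy
  rw [mem_closedBall_zero_iff] at hy
  refine mem_dom.2 ⟨0, h.2.2.1 _ ?_⟩
  unfold nsq
  simp only
  have : ‖y‖ ^ 2 ≤ (1/8) ^ 2 := pow_le_pow_left₀ (norm_nonneg _) hy 2
  simpa using this

lemma Nrm.dom_bd (h : Nrm K) {y : P} (hy : y ∈ Dom K) : ‖y‖ ≤ 9/4 := by
  obtain ⟨z, hz⟩ := mem_dom.1 hy
  have h1 := h.2.2.2 _ hz
  unfold nsq at h1
  simp only at h1
  have h2 : ‖y‖ ^ 2 ≤ (9/4) ^ 2 := by nlinarith [sq_nonneg z]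
  exact (pow_le_pow_iff_left₀ (norm_nonneg _) (by norm_num) (by norm_num)).1 h2

lemma Nrm.z_bd (h : Nrm K) {y : P} {z : ℝ} (hz : (y, z) ∈ K) : |z| ≤ 9/4 := by
  have h1 := h.2.2.2 _ hz
  unfold nsq at h1
  simp only at h1
  have h2 : z ^ 2 ≤ (9/4) ^ 2 := by nlinarith [sq_nonneg ‖y‖]
  exact abs_le_of_sq_le_sq h2 (by norm_num)

/-- The inner copy `(5/6) K`. -/
def Inner (K : Set X) : Set X := {x | (6/5 : ℝ) • x ∈ K}

/-- The normalized measure of short directions at `x`. -/
def defReal (K : Set X) (r : ℝ) (x : X) : ℝ :=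
  (volume (Sh K (218 * r) x)).toReal / (7 * (218 * r) ^ 3)

open Classical in
/-- The weight. -/
def wt (K : Set X) (r η : ℝ) (x : X) : ℝ :=
  if x ∈ K then (if x ∈ Inner K then 1 else 1 - η) * (1 - defReal K r x) else 0

/-- The joint set of short directions. -/
def ShT (K : Set X) (ρ : ℝ) : Set (X × X) :=
  {p | nsq p.2 ≤ ρ ^ 2 ∧ p.1 + p.2 ∉ K ∧ p.1 - p.2 ∉ K}

lemma measurableSet_ShT (hK : IsCompact K) (ρ : ℝ) : MeasurableSet (ShT K ρ) := by
  have h1 : MeasurableSet {p : X × X | nsq p.2 ≤ ρ ^ 2} :=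
    (isClosed_le (continuous_nsq.comp continuous_snd) continuous_const).measurableSet
  have h2 : MeasurableSet {p : X × X | p.1 + p.2 ∈ K} :=
    (hK.isClosed.preimage (by fun_prop : Continuous fun p : X × X => p.1 + p.2)).measurableSet
  have h3 : MeasurableSet {p : X × X | p.1 - p.2 ∈ K} :=
    (hK.isClosed.preimage (by fun_prop : Continuous fun p : X × X => p.1 - p.2)).measurableSet
  exact h1.inter (h2.compl.inter h3.compl)

lemma Sh_eq_preimage (ρ : ℝ) (x : X) : Sh K ρ x = Prod.mk x ⁻¹' ShT K ρ := rfl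

lemma measurable_vol_Sh (hK : IsCompact K) (ρ : ℝ) :
    Measurable (fun x : X => volume (Sh K ρ x)) := by
  have := measurable_measure_prodMk_left (ν := (volume : Measure X)) (measurableSet_ShT hK ρ)
  exact this

lemma volume_Bl_le {ρ : ℝ} (hρ : 0 < ρ) :
    volume {v : X | nsq v ≤ ρ ^ 2} ≤ ENNReal.ofReal (7 * ρ ^ 3) := by
  have hsub : {v : X | nsq v ≤ ρ ^ 2} ⊆ closedBall (0:P) ρ ×ˢ Icc (-ρ) ρ := by
    intro v hv
    have hv' : ‖v.1‖ ^ 2 + v.2 ^ 2 ≤ ρ ^ 2 := hv
    constructor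
    · rw [mem_closedBall_zero_iff]
      have : ‖v.1‖ ^ 2 ≤ ρ ^ 2 := by nlinarith [sq_nonneg v.2]
      exact (pow_le_pow_iff_left₀ (norm_nonneg _) hρ.le (by norm_num)).1 this
    · have : v.2 ^ 2 ≤ ρ ^ 2 := by nlinarith [sq_nonneg ‖v.1‖]
      have h3 := abs_le_of_sq_le_sq this hρ.le
      exact abs_le.1 h3
  refine le_trans (measure_mono hsub) ?_
  rw [Measure.volume_eq_prod, Measure.prod_prod, EuclideanSpace.volume_closedBall_fin_two,
    Real.volume_Icc, ← ENNReal.ofReal_pow hρ.le, ← ENNReal.ofReal_mul (by positivity),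
    ← ENNReal.ofReal_mul (by positivity)]
  apply ENNReal.ofReal_le_ofReal
  have hpi := Real.pi_lt_d2
  have : ρ - -ρ = 2 * ρ := by ring
  rw [this]
  have h3 : 0 < ρ ^ 3 := by positivity
  nlinarith

lemma Sh_ne_top {ρ : ℝ} (hρ : 0 < ρ) (x : X) : volume (Sh K ρ x) ≠ ⊤ := by
  have h1 : volume (Sh K ρ x) ≤ volume {v : X | nsq v ≤ ρ ^ 2} :=
    measure_mono fun v hv => hv.1
  exact ne_top_of_le_ne_top ENNReal.ofReal_ne_top (h1.trans (volume_Bl_le hρ))

lemma defReal_nonneg {r : ℝ} (hr : 0 < r) (x : X) : 0 ≤ defReal K r x := by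
  unfold defReal
  positivity

lemma defReal_le_one {r : ℝ} (hr : 0 < r) (x : X) : defReal K r x ≤ 1 := by
  unfold defReal
  have hρ : 0 < 218 * r := by positivity
  have hN : 0 < 7 * (218 * r) ^ 3 := by positivity
  rw [div_le_one hN]
  have h1 : volume (Sh K (218 * r) x) ≤ ENNReal.ofReal (7 * (218 * r) ^ 3) :=
    (measure_mono fun v hv => hv.1).trans (volume_Bl_le hρ)
  have := ENNReal.toReal_le_of_le_ofReal hN.le h1
  exact this

lemma ofReal_defReal {r : ℝ} (hr : 0 < r) (x : X) :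
    ENNReal.ofReal (defReal K r x) =
      volume (Sh K (218 * r) x) / ENNReal.ofReal (7 * (218 * r) ^ 3) := by
  have hρ : 0 < 218 * r := by positivity
  have hN : 0 < 7 * (218 * r) ^ 3 := by positivity
  unfold defReal
  rw [ENNReal.ofReal_div_of_pos hN, ENNReal.ofReal_toReal (Sh_ne_top hρ x)]

lemma measurable_defReal (hK : IsCompact K) (r : ℝ) : Measurable (defReal K r) := by
  unfold defReal
  exact (measurable_vol_Sh hK _).ennreal_toReal.div_const _

lemma inner_measurable (hK : IsCompact K) : MeasurableSet (Inner K) := by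
  have : Continuous fun x : X => (6/5 : ℝ) • x := continuous_const_smul _
  exact (hK.isClosed.preimage this).measurableSet

lemma measurable_wt (hK : IsCompact K) (r η : ℝ) : Measurable (wt K r η) := by
  unfold wt
  refine Measurable.ite hK.measurableSet ?_ measurable_const
  refine Measurable.mul ?_ (measurable_const.sub (measurable_defReal hK r))
  exact Measurable.ite (inner_measurable hK) measurable_const measurable_const

lemma wt_of_not_mem {r η : ℝ} {x : X} (hx : x ∉ K) : wt K r η x = 0 := by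
  simp [wt, hx]

lemma wt_nonneg {r η : ℝ} (hr : 0 < r) (hη : 0 ≤ η) (hη1 : η ≤ 1) (x : X) : 0 ≤ wt K r η x := by
  unfold wt
  split_ifs with h1 h2
  · have := defReal_le_one (K := K) hr x
    simp only [one_mul]
    linarith
  · exact mul_nonneg (by linarith) (by linarith [defReal_le_one (K := K) hr x])
  · exact le_rfl

lemma wt_le_one {r η : ℝ} (hr : 0 < r) (hη : 0 ≤ η) (hη1 : η ≤ 1) (x : X) : wt K r η x ≤ 1 := by
  unfold wt
  have h0 := defReal_nonneg (K := K) hr x
  have h1 := defReal_le_one (K := K) hr x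
  split_ifs with h2 h3
  · simp only [one_mul]
    linarith
  · nlinarith
  · norm_num

lemma wt_add_def_le {r η : ℝ} (hr : 0 < r) (hη : 0 ≤ η) (hη1 : η ≤ 1) {x : X} (hx : x ∈ K) :
    wt K r η x + defReal K r x ≤ 1 := by
  unfold wt
  have h0 := defReal_nonneg (K := K) hr x
  have h1 := defReal_le_one (K := K) hr x
  simp only [hx, if_true]
  split_ifs with h3
  · simp only [one_mul]
    linarith
  · nlinarith

lemma wt_le_shell {r η : ℝ} (hr : 0 < r) (hη : 0 ≤ η) (hη1 : η ≤ 1) {x : X} (hx : x ∉ Inner K) :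
    wt K r η x ≤ 1 - η := by
  unfold wt
  have h0 := defReal_nonneg (K := K) hr x
  have h1 := defReal_le_one (K := K) hr x
  simp only [hx, if_false]
  split_ifs with h2
  · nlinarith
  · linarith

/-- A pointwise lower bound for the weight. -/
lemma one_le_wt_add {r η : ℝ} (hr : 0 < r) (hη : 0 ≤ η) (hη1 : η ≤ 1) {x : X} (hx : x ∈ K) :
    1 ≤ wt K r η x + defReal K r x + (Inner K)ᶜ.indicator (fun _ => η) x := by
  unfold wt
  have h0 := defReal_nonneg (K := K) hr x
  have h1 := defReal_le_one (K := K) hr x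
  simp only [hx, if_true]
  by_cases h3 : x ∈ Inner K
  · simp only [h3, if_true, one_mul, indicator, mem_compl_iff, not_true_eq_false, if_false]
    linarith
  · simp only [h3, if_false, indicator, mem_compl_iff, not_false_eq_true, if_true]
    nlinarith

end Vale.Agent.Lib.P243
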